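import Mathlib

/-!
# P124: the algebraic estimates behind the Lipschitz retraction
-/

namespace Vale.Agent.P124

variable {F : Type*} [AddCommGroup F] [Module ℝ F]

theorem step (p : Seminorm ℝ F) {x y : F} {a b : ℝ} (ha : 0 < a) (hab : a ≤ b)
    (hx : p x ≤ a) (hxy : p (x - y) ≤ b - a) :
    p ((a⁻¹) ^ 2 • x - (b⁻¹) ^ 2 • y) ≤ 3 * (a⁻¹ - b⁻¹) := by
  have hb : 0 < b := lt_of_lt_of_le ha hab
  set α := a⁻¹ with hα
  set β := b⁻¹ with hβ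
  have hα0 : 0 < α := inv_pos.2 ha
  have hβ0 : 0 < β := inv_pos.2 hb
  have hβα : β ≤ α := inv_anti₀ ha hab
  have haα : a * α = 1 := mul_inv_cancel₀ ha.ne'
  have hbβ : b * β = 1 := mul_inv_cancel₀ hb.ne'
  have e : α ^ 2 • x - β ^ 2 • y = β ^ 2 • (x - y) + (α ^ 2 - β ^ 2) • x := by module
  rw [e]
  refine (map_add_le_add p _ _).trans ?_
  rw [map_smul_eq_mul, map_smul_eq_mul, Real.norm_of_nonneg (by positivity),
    Real.norm_of_nonneg (by nlinarith)]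
  have h1 : β ^ 2 * p (x - y) ≤ β ^ 2 * (b - a) := by gcongr
  have h2 : (α ^ 2 - β ^ 2) * p x ≤ (α ^ 2 - β ^ 2) * a :=
    mul_le_mul_of_nonneg_left hx (by nlinarith)
  have h3 : β ^ 2 * (b - a) ≤ α - β := by
    have e1 : β ^ 2 * (b - a) = β * (1 - a * β) := by
      calc β ^ 2 * (b - a) = β * (b * β - a * β) := by ring
        _ = β * (1 - a * β) := by rw [hbβ]
    have e2 : α - β = α * (1 - a * β) := by
      calc α - β = α - (a * α) * β := by rw [haα]; ring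
        _ = α * (1 - a * β) := by ring
    rw [e1, e2]
    apply mul_le_mul_of_nonneg_right hβα
    have : a * β ≤ b * β := by gcongr
    linarith
  have h4 : (α ^ 2 - β ^ 2) * a ≤ 2 * (α - β) := by
    have e1 : (α ^ 2 - β ^ 2) * a = (α - β) * (1 + a * β) := by
      calc (α ^ 2 - β ^ 2) * a = (α - β) * (a * α + a * β) := by ring
        _ = (α - β) * (1 + a * β) := by rw [haα]
    rw [e1]
    have : a * β ≤ b * β := by gcongr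
    nlinarith
  linarith

theorem real5 {t' β α' β' a' b' ε : ℝ} (ht' : 0 < t') (hε0 : 0 ≤ ε) (hβ0 : 0 < β)
    (hβ0' : 0 < β') (hβα' : β' ≤ α') (hβ2 : β ≤ 2 * β') (ht'β : t' * β ≤ 1)
    (hββ : |β - β'| ≤ 2 * ε * (β * β')) (hg' : 0 ≤ b' - a')
    (hq : α' - β' = (b' - a') * (α' * β')) :
    |t' ^ 2 * (β ^ 2 - β' ^ 2)| * (b' - a') ≤ 6 * ε * (t' * (α' - β')) := by
  have hα0' : 0 < α' := lt_of_lt_of_le hβ0' hβα'
  have h0 : |t' ^ 2 * (β ^ 2 - β' ^ 2)| ≤ t' ^ 2 * ((2 * ε * (β * β')) * (β + β')) := by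
    rw [abs_mul, abs_of_nonneg (by positivity : 0 ≤ t' ^ 2)]
    have : β ^ 2 - β' ^ 2 = (β - β') * (β + β') := by ring
    rw [this, abs_mul, abs_of_nonneg (by positivity : 0 ≤ β + β')]
    gcongr
  calc |t' ^ 2 * (β ^ 2 - β' ^ 2)| * (b' - a')
      ≤ (t' ^ 2 * ((2 * ε * (β * β')) * (β + β'))) * (b' - a') := by gcongr
    _ = 2 * ε * t' * (b' - a') * ((t' * β) * (β' * (β + β'))) := by ring
    _ ≤ 2 * ε * t' * (b' - a') * (1 * (β' * (2 * β' + β'))) := by gcongr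
    _ = 6 * ε * t' * (b' - a') * (β' * β') := by ring
    _ ≤ 6 * ε * t' * (b' - a') * (α' * β') := by gcongr
    _ = 6 * ε * (t' * (α' - β')) := by rw [hq]; ring

theorem real4a {α β α' β' a b a' b' ε δ : ℝ} (hα0 : 0 < α) (hβ0 : 0 < β)
    (hα0' : 0 < α') (hβ0' : 0 < β')
    (hββ : |β - β'| ≤ 2 * ε * (β * β')) (hαα : |α - α'| ≤ 2 * ε * (α * α'))
    (hg' : 0 ≤ b' - a') (hg : |(b - a) - (b' - a')| ≤ δ)
    (hαβ0 : α - β = (b - a) * (α * β))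
    (hq : α' - β' = (b' - a') * (α' * β')) :
    |(α ^ 2 - β ^ 2) - (α' ^ 2 - β' ^ 2)| ≤
        δ * (α * β * (α + β)) +
        (b' - a') * (((2 * ε * (α * α')) * ((α + α') * β) + α' ^ 2 * (2 * ε * (β * β'))) +
          ((2 * ε * (α * α')) * β ^ 2 + α' * ((2 * ε * (β * β')) * (β + β')))) := by
  have e1 : (α ^ 2 - β ^ 2) - (α' ^ 2 - β' ^ 2) =
      ((b - a) - (b' - a')) * (α * β * (α + β)) +
      (b' - a') * (((α - α') * ((α + α') * β) + α' ^ 2 * (β - β')) +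
        ((α - α') * β ^ 2 + α' * ((β - β') * (β + β')))) := by
    calc (α ^ 2 - β ^ 2) - (α' ^ 2 - β' ^ 2)
        = (α - β) * (α + β) - (α' - β') * (α' + β') := by ring
      _ = ((b - a) * (α * β)) * (α + β) - ((b' - a') * (α' * β')) * (α' + β') := by
          rw [hαβ0, hq]
      _ = _ := by ring
  rw [e1]
  refine (abs_add_le _ _).trans ?_
  apply add_le_add
  · rw [abs_mul, abs_of_nonneg (by positivity : 0 ≤ α * β * (α + β))]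
    gcongr
  · rw [abs_mul, abs_of_nonneg hg']
    apply mul_le_mul_of_nonneg_left _ hg'
    refine (abs_add_le _ _).trans ?_
    apply add_le_add
    · refine (abs_add_le _ _).trans ?_
      apply add_le_add
      · rw [abs_mul, abs_of_nonneg (by positivity : 0 ≤ (α + α') * β)]
        gcongr
      · rw [abs_mul, abs_of_nonneg (by positivity : 0 ≤ α' ^ 2)]
        gcongr
    · refine (abs_add_le _ _).trans ?_
      apply add_le_add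
      · rw [abs_mul, abs_of_nonneg (by positivity : 0 ≤ β ^ 2)]
        gcongr
      · rw [abs_mul, abs_of_nonneg hα0'.le, abs_mul,
          abs_of_nonneg (by positivity : 0 ≤ β + β')]
        gcongr

theorem real4 {t' α β α' β' a b a' b' ε δ : ℝ} (ht' : 0 < t') (hα0 : 0 < α) (hβ0 : 0 < β)
    (hα0' : 0 < α') (hβ0' : 0 < β') (hε0 : 0 ≤ ε) (hδ0 : 0 ≤ δ) (ha' : 0 < a')
    (hβα : β ≤ α) (hβα' : β' ≤ α')
    (hββ : |β - β'| ≤ 2 * ε * (β * β')) (hαα : |α - α'| ≤ 2 * ε * (α * α'))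
    (hg' : 0 ≤ b' - a') (hg : |(b - a) - (b' - a')| ≤ δ)
    (hαβ0 : α - β = (b - a) * (α * β))
    (hq : α' - β' = (b' - a') * (α' * β'))
    (ht'α : t' * α ≤ 1) (ht'β : t' * β ≤ 1) (hα2 : α ≤ 2 * α') (hβ2 : β ≤ 2 * β')
    (haα2 : a' * α ≤ 2) (h2 : a' * α' = 1) :
    |t' ^ 2 * ((α ^ 2 - β ^ 2) - (α' ^ 2 - β' ^ 2))| * a' ≤
      4 * δ + 28 * ε * (t' * (α' - β')) := by
  have h0 := real4a hα0 hβ0 hα0' hβ0' hββ hαα hg' hg hαβ0 hq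
  have hβα2 : β ≤ 2 * α' := hβα.trans hα2
  have k1 : (t' * α) * ((α + α') * β) ≤ 6 * (α' * β') := by
    calc (t' * α) * ((α + α') * β) ≤ 1 * ((2 * α' + α') * (2 * β')) := by gcongr
      _ = 6 * (α' * β') := by ring
  have k2 : (t' * β) * (α' * β') ≤ 1 * (α' * β') := by gcongr
  have k3 : (t' * α) * (β * β) ≤ 4 * (α' * β') := by
    calc (t' * α) * (β * β) ≤ 1 * ((2 * α') * (2 * β')) := by gcongr
      _ = 4 * (α' * β') := by ring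
  have k4 : (t' * β) * (β' * (β + β')) ≤ 3 * (α' * β') := by
    calc (t' * β) * (β' * (β + β')) ≤ 1 * (α' * (2 * β' + β')) := by gcongr
      _ = 3 * (α' * β') := by ring
  have k5 : (a' * α) * ((t' * β) * (t' * α + t' * β)) ≤ 4 := by
    calc (a' * α) * ((t' * β) * (t' * α + t' * β)) ≤ 2 * (1 * (1 + 1)) := by gcongr
      _ = 4 := by norm_num
  have hc : 0 ≤ 2 * ε * t' * (b' - a') := by positivity
  calc |t' ^ 2 * ((α ^ 2 - β ^ 2) - (α' ^ 2 - β' ^ 2))| * a'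
      = t' ^ 2 * |(α ^ 2 - β ^ 2) - (α' ^ 2 - β' ^ 2)| * a' := by
        rw [abs_mul, abs_of_nonneg (by positivity : 0 ≤ t' ^ 2)]
    _ ≤ t' ^ 2 * (δ * (α * β * (α + β)) +
      (b' - a') * (((2 * ε * (α * α')) * ((α + α') * β) + α' ^ 2 * (2 * ε * (β * β'))) +
        ((2 * ε * (α * α')) * β ^ 2 + α' * ((2 * ε * (β * β')) * (β + β'))))) * a' := by
        apply mul_le_mul_of_nonneg_right _ ha'.le
        exact mul_le_mul_of_nonneg_left h0 (by positivity)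
    _ = δ * ((a' * α) * ((t' * β) * (t' * α + t' * β))) +
        2 * ε * t' * (b' - a') * (
          (a' * α') * ((t' * α) * ((α + α') * β)) + (a' * α') * ((t' * β) * (α' * β')) +
            (a' * α') * ((t' * α) * (β * β)) + (a' * α') * ((t' * β) * (β' * (β + β')))) := by ring
    _ = δ * ((a' * α) * ((t' * β) * (t' * α + t' * β))) +
        2 * ε * t' * (b' - a') * (
          ((t' * α) * ((α + α') * β)) + ((t' * β) * (α' * β')) +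
            ((t' * α) * (β * β)) + ((t' * β) * (β' * (β + β')))) := by rw [h2]; ring
    _ ≤ δ * 4 + 2 * ε * t' * (b' - a') * (14 * (α' * β')) := by
        apply add_le_add
        · exact mul_le_mul_of_nonneg_left k5 hδ0
        · exact mul_le_mul_of_nonneg_left (by linarith) hc
    _ = 4 * δ + 28 * ε * (t' * ((b' - a') * (α' * β'))) := by ring
    _ = 4 * δ + 28 * ε * (t' * (α' - β')) := by rw [← hq]

theorem b1 (p : Seminorm ℝ F) {t t' α β ε : ℝ} {X : F} (ht' : 0 < t') (htt : t' ≤ t)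
    (h1 : t - t' ≤ ε) (hαβ : 0 ≤ α - β) (hX : p X ≤ 3 * (α - β)) :
    p ((t ^ 2 - t' ^ 2) • X) ≤ 6 * ε * (t * (α - β)) := by
  have h0 : 0 ≤ t ^ 2 - t' ^ 2 := by nlinarith
  rw [map_smul_eq_mul, Real.norm_of_nonneg h0]
  have h2 : 0 ≤ t - t' := by linarith
  have h3 : 0 ≤ ε := h2.trans h1
  have h4 : 0 ≤ t + t' := by linarith
  calc (t ^ 2 - t' ^ 2) * p X
      ≤ (t ^ 2 - t' ^ 2) * (3 * (α - β)) := mul_le_mul_of_nonneg_left hX h0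
    _ = (t - t') * (t + t') * (3 * (α - β)) := by ring
    _ ≤ ε * (t + t) * (3 * (α - β)) := by gcongr
    _ = 6 * ε * (t * (α - β)) := by ring

theorem b2 (p : Seminorm ℝ F) {t' β δ : ℝ} {X : F} (ht' : 0 < t') (hβ0 : 0 < β)
    (hδ0 : 0 ≤ δ) (ht'β : t' * β ≤ 1) (hX : p X ≤ δ) :
    p ((t' ^ 2 * β ^ 2) • X) ≤ δ := by
  rw [map_smul_eq_mul, Real.norm_of_nonneg (by positivity)]
  calc t' ^ 2 * β ^ 2 * p X ≤ t' ^ 2 * β ^ 2 * δ := by gcongr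
    _ = (t' * β) ^ 2 * δ := by ring
    _ ≤ 1 ^ 2 * δ := by gcongr
    _ = δ := by ring

theorem b3 (p : Seminorm ℝ F) {t t' α β ε : ℝ} {X : F} (ht' : 0 < t') (htt : t' ≤ t)
    (hε0 : 0 ≤ ε) (hβ0 : 0 < β) (hβα : β ≤ α) (ht'α : t' * α ≤ 1) (ht'β : t' * β ≤ 1)
    (hX : p X ≤ ε) :
    p ((t' ^ 2 * (α ^ 2 - β ^ 2)) • X) ≤ 2 * ε * (t * (α - β)) := by
  have h00 : 0 ≤ α ^ 2 - β ^ 2 := by nlinarith
  have h0 : 0 ≤ t' ^ 2 * (α ^ 2 - β ^ 2) := mul_nonneg (by positivity) h00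
  have hαβn : 0 ≤ α - β := by linarith
  have hα0 : 0 < α := lt_of_lt_of_le hβ0 hβα
  rw [map_smul_eq_mul, Real.norm_of_nonneg h0]
  calc t' ^ 2 * (α ^ 2 - β ^ 2) * p X ≤ t' ^ 2 * (α ^ 2 - β ^ 2) * ε :=
        mul_le_mul_of_nonneg_left hX h0
    _ = (t' * α + t' * β) * (t' * (α - β)) * ε := by ring
    _ ≤ (1 + 1) * (t * (α - β)) * ε := by gcongr
    _ = 2 * ε * (t * (α - β)) := by ring

theorem lip0 (p : Seminorm ℝ F) {x y x' y' : F} {t t' a b a' b' ε δ α β α' β' : ℝ}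
    (ht' : 0 < t') (htt : t' ≤ t) (hε0 : 0 ≤ ε) (h1 : t - t' ≤ ε)
    (ha' : 0 < a') (hab' : a' ≤ b')
    (hx' : p x' ≤ a') (hxy' : p (x' - y') ≤ b' - a')
    (hxx : p (x - x') ≤ ε) (hd : p ((x - y) - (x' - y')) ≤ δ)
    (hg : |(b - a) - (b' - a')| ≤ δ)
    (hstep : p (α ^ 2 • x - β ^ 2 • y) ≤ 3 * (α - β))
    (hαβ0 : α - β = (b - a) * (α * β)) (hαβ0' : α' - β' = (b' - a') * (α' * β'))
    (hαα : |α - α'| ≤ 2 * ε * (α * α')) (hββ : |β - β'| ≤ 2 * ε * (β * β'))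
    (hβα : β ≤ α) (hβα' : β' ≤ α') (haα' : a' * α' = 1) (hα0 : 0 < α) (hβ0 : 0 < β)
    (hα0' : 0 < α') (hβ0' : 0 < β') (ht'α : t' * α ≤ 1) (ht'β : t' * β ≤ 1)
    (hα2 : α ≤ 2 * α') (hβ2 : β ≤ 2 * β') (haα2 : a' * α ≤ 2) :
    p (t ^ 2 • (α ^ 2 • x - β ^ 2 • y) - t' ^ 2 • (α' ^ 2 • x' - β' ^ 2 • y')) ≤
      5 * δ + 8 * ε * (t * (α - β)) + 34 * ε * (t' * (α' - β')) := by
  have hδ0 : 0 ≤ δ := (abs_nonneg _).trans hg
  have hg' : 0 ≤ b' - a' := by linarith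
  have hαβn : 0 ≤ α - β := by linarith
  have e : t ^ 2 • (α ^ 2 • x - β ^ 2 • y) - t' ^ 2 • (α' ^ 2 • x' - β' ^ 2 • y') =
      ((((t ^ 2 - t' ^ 2) • (α ^ 2 • x - β ^ 2 • y) +
      (t' ^ 2 * β ^ 2) • ((x - y) - (x' - y'))) +
      (t' ^ 2 * (α ^ 2 - β ^ 2)) • (x - x')) +
      (t' ^ 2 * ((α ^ 2 - β ^ 2) - (α' ^ 2 - β' ^ 2))) • x') +
      (t' ^ 2 * (β ^ 2 - β' ^ 2)) • (x' - y') := by module
  rw [e]
  have B1 := b1 p ht' htt h1 hαβn hstep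
  have B2 := b2 p ht' hβ0 hδ0 ht'β hd
  have B3 := b3 p ht' htt hε0 hβ0 hβα ht'α ht'β hxx
  have B5 : p ((t' ^ 2 * (β ^ 2 - β' ^ 2)) • (x' - y')) ≤ 6 * ε * (t' * (α' - β')) := by
    rw [map_smul_eq_mul, Real.norm_eq_abs]
    exact (mul_le_mul_of_nonneg_left hxy' (abs_nonneg _)).trans
      (real5 ht' hε0 hβ0 hβ0' hβα' hβ2 ht'β hββ hg' hαβ0')
  have B4 : p ((t' ^ 2 * ((α ^ 2 - β ^ 2) - (α' ^ 2 - β' ^ 2))) • x') ≤
      4 * δ + 28 * ε * (t' * (α' - β')) := by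
    rw [map_smul_eq_mul, Real.norm_eq_abs]
    exact (mul_le_mul_of_nonneg_left hx' (abs_nonneg _)).trans
      (real4 ht' hα0 hβ0 hα0' hβ0' hε0 hδ0 ha' hβα hβα' hββ hαα hg' hg hαβ0 hαβ0' ht'α ht'β
        hα2 hβ2 haα2 haα')
  have T1 := map_add_le_add p ((((t ^ 2 - t' ^ 2) • (α ^ 2 • x - β ^ 2 • y) +
      (t' ^ 2 * β ^ 2) • ((x - y) - (x' - y'))) +
      (t' ^ 2 * (α ^ 2 - β ^ 2)) • (x - x')) +
      (t' ^ 2 * ((α ^ 2 - β ^ 2) - (α' ^ 2 - β' ^ 2))) • x')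
      ((t' ^ 2 * (β ^ 2 - β' ^ 2)) • (x' - y'))
  have T2 := map_add_le_add p (((t ^ 2 - t' ^ 2) • (α ^ 2 • x - β ^ 2 • y) +
      (t' ^ 2 * β ^ 2) • ((x - y) - (x' - y'))) +
      (t' ^ 2 * (α ^ 2 - β ^ 2)) • (x - x'))
      ((t' ^ 2 * ((α ^ 2 - β ^ 2) - (α' ^ 2 - β' ^ 2))) • x')
  have T3 := map_add_le_add p ((t ^ 2 - t' ^ 2) • (α ^ 2 • x - β ^ 2 • y) +
      (t' ^ 2 * β ^ 2) • ((x - y) - (x' - y')))
      ((t' ^ 2 * (α ^ 2 - β ^ 2)) • (x - x'))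
  have T4 := map_add_le_add p ((t ^ 2 - t' ^ 2) • (α ^ 2 • x - β ^ 2 • y))
      ((t' ^ 2 * β ^ 2) • ((x - y) - (x' - y')))
  linarith

theorem lip (p : Seminorm ℝ F) {x y x' y' : F} {t t' a b a' b' ε δ : ℝ}
    (ht' : 0 < t') (htt : t' ≤ t) (hε0 : 0 ≤ ε) (hε : 4 * ε ≤ t') (h1 : t - t' ≤ ε)
    (hta : t ≤ a) (hab : a ≤ b) (hta' : t' ≤ a') (hab' : a' ≤ b')
    (haa : |a - a'| ≤ 2 * ε) (hbb : |b - b'| ≤ 2 * ε)
    (hx : p x ≤ a) (hx' : p x' ≤ a') (hxy : p (x - y) ≤ b - a) (hxy' : p (x' - y') ≤ b' - a')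
    (hxx : p (x - x') ≤ ε) (hd : p ((x - y) - (x' - y')) ≤ δ)
    (hg : |(b - a) - (b' - a')| ≤ δ) :
    p (t ^ 2 • ((a⁻¹) ^ 2 • x - (b⁻¹) ^ 2 • y) - t' ^ 2 • ((a'⁻¹) ^ 2 • x' - (b'⁻¹) ^ 2 • y')) ≤
      5 * δ + 8 * ε * (t * (a⁻¹ - b⁻¹)) + 34 * ε * (t' * (a'⁻¹ - b'⁻¹)) := by
  have ht : 0 < t := lt_of_lt_of_le ht' htt
  have ha : 0 < a := lt_of_lt_of_le ht hta
  have hb : 0 < b := lt_of_lt_of_le ha hab
  have ha' : 0 < a' := lt_of_lt_of_le ht' hta'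
  have hb' : 0 < b' := lt_of_lt_of_le ha' hab'
  have haα : a * a⁻¹ = 1 := mul_inv_cancel₀ ha.ne'
  have haα' : a' * a'⁻¹ = 1 := mul_inv_cancel₀ ha'.ne'
  have hα0 : 0 < a⁻¹ := inv_pos.2 ha
  have hβ0 : 0 < b⁻¹ := inv_pos.2 hb
  have hα0' : 0 < a'⁻¹ := inv_pos.2 ha'
  have hβ0' : 0 < b'⁻¹ := inv_pos.2 hb'
  have haa1 := (abs_le.1 haa).1
  have haa2 := (abs_le.1 haa).2
  have hbb1 := (abs_le.1 hbb).1
  have hbb2 := (abs_le.1 hbb).2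
  have hβα : b⁻¹ ≤ a⁻¹ := inv_anti₀ ha hab
  have hα2 : a⁻¹ ≤ 2 * a'⁻¹ := by
    rw [← div_eq_mul_inv, inv_eq_one_div, div_le_div_iff₀ ha ha']
    linarith
  have hβ2 : b⁻¹ ≤ 2 * b'⁻¹ := by
    rw [← div_eq_mul_inv, inv_eq_one_div, div_le_div_iff₀ hb hb']
    linarith
  have haα2 : a' * a⁻¹ ≤ 2 := by
    calc a' * a⁻¹ ≤ a' * (2 * a'⁻¹) := by gcongr
      _ = 2 * (a' * a'⁻¹) := by ring
      _ = 2 := by rw [haα']; ring
  have ht'α : t' * a⁻¹ ≤ 1 := by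
    calc t' * a⁻¹ ≤ a * a⁻¹ := by gcongr; exact htt.trans hta
      _ = 1 := haα
  have ht'β : t' * b⁻¹ ≤ 1 := le_trans (by gcongr) ht'α
  have hαα : |a⁻¹ - a'⁻¹| ≤ 2 * ε * (a⁻¹ * a'⁻¹) := by
    have : a⁻¹ - a'⁻¹ = (a' - a) * (a⁻¹ * a'⁻¹) := by field_simp
    rw [this, abs_mul, abs_of_nonneg (by positivity : 0 ≤ a⁻¹ * a'⁻¹)]
    apply mul_le_mul_of_nonneg_right _ (by positivity)
    rw [abs_sub_comm]; exact haa
  have hββ : |b⁻¹ - b'⁻¹| ≤ 2 * ε * (b⁻¹ * b'⁻¹) := by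
    have : b⁻¹ - b'⁻¹ = (b' - b) * (b⁻¹ * b'⁻¹) := by field_simp
    rw [this, abs_mul, abs_of_nonneg (by positivity : 0 ≤ b⁻¹ * b'⁻¹)]
    apply mul_le_mul_of_nonneg_right _ (by positivity)
    rw [abs_sub_comm]; exact hbb
  exact lip0 p ht' htt hε0 h1 ha' hab' hx' hxy' hxx hd hg (step p ha hab hx hxy)
    (by field_simp) (by field_simp) hαα hββ hβα (inv_anti₀ ha' hab') haα' hα0 hβ0 hα0' hβ0'
    ht'α ht'β hα2 hβ2 haα2

end Vale.Agent.P124
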