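import Vale.Agent.P124.Incomplete

/-!
# P124: dense subspaces of a separable Banach space, Lipschitz but not linearly isomorphic
-/

namespace Vale.Agent.P124

open Filter Topology TopologicalSpace

section general

variable {X : Type} [NormedAddCommGroup X] [NormedSpace ℝ X]

theorem Zs_dense (Y : Submodule ℝ X) : Dense (Zs Y : Set (Lq X)) := by
  intro f
  have h3 := lp.hasSum_single (p := 1) (by norm_num) f
  refine mem_closure_of_tendsto h3 (Eventually.of_forall fun s => ?_)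
  refine Submodule.sum_mem _ fun i _ => ?_
  rw [mem_Zs]
  filter_upwards [eventually_gt_atTop i] with n hn
  rw [lp.single_apply_ne (E := fun _ : ℕ => X) 1 i _ (by omega)]
  exact Y.zero_mem

theorem Ek_mono (Y : Submodule ℝ X) : Monotone (Ek Y) := by
  intro a b hab f hf n hn
  exact hf n (hab.trans hn)

theorem Zs_iUnion (Y : Submodule ℝ X) : (Zs Y : Set (Lq X)) = ⋃ n, (Ek Y n : Set (Lq X)) := by
  ext f
  rw [SetLike.mem_coe, mem_Zs, eventually_atTop, Set.mem_iUnion]
  exact Iff.rfl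

theorem Lq_lip (Φ : X ≃ X) {K K' : NNReal} (hK : LipschitzWith K Φ)
    (hK' : LipschitzWith K' Φ.symm) (h0 : Φ 0 = 0) {Y Z : Submodule ℝ X}
    (h : Φ '' (Y : Set X) = (Z : Set X)) :
    ∃ f : Lq X ≃ Lq X, (∃ K, LipschitzWith K f) ∧ (∃ K, LipschitzWith K f.symm) ∧
      f '' (Zs Y : Set (Lq X)) = (Zs Z : Set (Lq X)) := by
  have h0' : Φ.symm 0 = 0 := by rw [Equiv.symm_apply_eq, h0]
  have h1 : ∀ y, Φ y ∈ Z ↔ y ∈ Y := by
    intro y
    constructor
    · intro hy
      have : Φ y ∈ Φ '' (Y : Set X) := by rw [h]; exact hy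
      obtain ⟨u, hu, hu2⟩ := this
      rw [← Φ.injective hu2]
      exact hu
    · intro hy
      have : Φ y ∈ Φ '' (Y : Set X) := ⟨y, hy, rfl⟩
      rw [h] at this
      exact this
  let f : Lq X ≃ Lq X :=
    { toFun := mapL Φ K hK h0
      invFun := mapL Φ.symm K' hK' h0'
      left_inv := by
        intro a
        apply lp.ext
        funext n
        exact Φ.symm_apply_apply _
      right_inv := by
        intro b
        apply lp.ext
        funext n
        exact Φ.apply_symm_apply _ }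
  have hf : ∀ a, f a ∈ Zs Z ↔ a ∈ Zs Y := by
    intro a
    rw [mem_Zs, mem_Zs]
    constructor
    · intro ha
      filter_upwards [ha] with n hn
      exact (h1 _).1 hn
    · intro ha
      filter_upwards [ha] with n hn
      exact (h1 _).2 hn
  refine ⟨f, ⟨K, mapL_lip Φ K hK h0⟩, ⟨K', mapL_lip Φ.symm K' hK' h0'⟩, ?_⟩
  ext b
  constructor
  · rintro ⟨a, ha, rfl⟩
    exact (hf a).2 ha
  · intro hb
    refine ⟨f.symm b, ?_, f.apply_symm_apply b⟩
    have : f (f.symm b) ∈ Zs Z := by rw [f.apply_symm_apply]; exact hb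
    exact (hf _).1 this

end general

theorem dense_main : ∃ (X : Type) (_ : NormedAddCommGroup X) (_ : NormedSpace ℝ X),
    CompleteSpace X ∧ SeparableSpace X ∧ ∃ E F : Submodule ℝ X,
      Dense (E : Set X) ∧ Dense (F : Set X) ∧
      (∃ A : ℕ → Submodule ℝ X, Monotone A ∧ (∀ n, IsClosed (A n : Set X)) ∧
        (E : Set X) = ⋃ n, (A n : Set X)) ∧
      (∃ A : ℕ → Submodule ℝ X, Monotone A ∧ (∀ n, IsClosed (A n : Set X)) ∧
        (F : Set X) = ⋃ n, (A n : Set X)) ∧
      (∃ Φ : X ≃ X, (∃ K, LipschitzWith K Φ) ∧ (∃ K, LipschitzWith K Φ.symm) ∧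
        Φ '' (E : Set X) = (F : Set X)) ∧
      IsEmpty (E ≃L[ℝ] F) := by
  obtain ⟨Φ, K, K', h1, h2, h3, h4⟩ := klee0
  have hc : CompleteSpace (Lq (Vale.Agent.P124.E × D)) := by
    haveI := complete_X
    infer_instance
  have hs : SeparableSpace (Lq (Vale.Agent.P124.E × D)) := by
    haveI := sep_X
    exact sep_Lq _
  exact ⟨Lq (Vale.Agent.P124.E × D), inferInstance, inferInstance, hc, hs, Zs Y1, Zs Y2,
    Zs_dense Y1, Zs_dense Y2,
    ⟨Ek Y1, Ek_mono Y1, Ek_closed Y1_closed, Zs_iUnion Y1⟩,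
    ⟨Ek Y2, Ek_mono Y2, Ek_closed Y2_closed, Zs_iUnion Y2⟩,
    Lq_lip Φ h1 h2 h3 h4, incomplete_lin⟩

end Vale.Agent.P124
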