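import Vale.Agent.P124.Seq

/-!
# P124: separable normed spaces that are Lipschitz isomorphic and not linearly isomorphic
-/

namespace Vale.Agent.P124

open Filter Topology TopologicalSpace

theorem sep_Lq (X : Type) [NormedAddCommGroup X] [NormedSpace ℝ X] [SeparableSpace X] :
    SeparableSpace (Lq X) := by
  rw [← isSeparable_univ_iff]
  set S : Set (Lq X) := ⋃ n, Set.range (lp.singleContinuousLinearMap ℝ (fun _ : ℕ => X) 1 n)
    with hS
  have h1 : IsSeparable S :=
    IsSeparable.iUnion fun n => isSeparable_range (ContinuousLinearMap.continuous _)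
  have h2 : IsSeparable (Submodule.span ℝ S : Set (Lq X)) := h1.span
  refine h2.closure.mono fun f _ => ?_
  have h3 := lp.hasSum_single (p := 1) (by norm_num) f
  refine mem_closure_of_tendsto h3 (Eventually.of_forall fun s => ?_)
  refine Submodule.sum_mem _ fun i _ => Submodule.subset_span ?_
  exact Set.mem_iUnion.2 ⟨i, ⟨(f : ℕ → X) i, rfl⟩⟩

theorem sep_sub {X : Type} [NormedAddCommGroup X] [NormedSpace ℝ X] (h : SeparableSpace X)
    (Y : Submodule ℝ X) : SeparableSpace Y := by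
  haveI := UniformSpace.secondCountable_of_separable X
  infer_instance

theorem sep_E : SeparableSpace E := sep_Lq ℝ

theorem complete_D : CompleteSpace D := D_closed.completeSpace_coe

theorem complete_X : CompleteSpace (E × D) := by
  haveI := complete_D
  infer_instance

theorem sep_X : SeparableSpace (E × D) := by
  haveI := sep_E
  haveI := sep_sub sep_E D
  infer_instance

noncomputable def Y1 : Submodule ℝ (E × D) := Submodule.prod D ⊥

noncomputable def Y2 : Submodule ℝ (E × D) := Submodule.prod ⊥ ⊤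

theorem Y1_coe : (Y1 : Set (E × D)) = {z | z.1 ∈ D ∧ z.2 = 0} := by
  ext z
  simp [Y1]

theorem Y2_coe : (Y2 : Set (E × D)) = {z | z.1 = 0} := by
  ext z
  simp [Y2]

theorem Y1_closed : IsClosed (Y1 : Set (E × D)) := by
  rw [Y1_coe]
  exact (D_closed.preimage continuous_fst).inter (isClosed_singleton.preimage continuous_snd)

theorem Y2_closed : IsClosed (Y2 : Set (E × D)) := by
  rw [Y2_coe]
  exact isClosed_singleton.preimage continuous_fst

theorem Y1_not_compl : ¬ Y1.ClosedComplemented := by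
  rintro ⟨P, hP⟩
  apply not_compl
  let Q : E →L[ℝ] E := (ContinuousLinearMap.fst ℝ E D).comp
    (Y1.subtypeL.comp (P.comp (ContinuousLinearMap.inl ℝ E D)))
  have hQ : ∀ x, Q x = ((P (x, 0) : Y1) : E × D).1 := fun x => rfl
  have hmem : ∀ x, Q x ∈ D := by
    intro x
    have h1 : ((P (x, 0) : Y1) : E × D) ∈ (Y1 : Set (E × D)) := (P (x, 0)).2
    rw [Y1_coe] at h1
    exact h1.1
  refine ⟨Q.codRestrict D hmem, fun x => ?_⟩
  apply Subtype.ext
  have h1 : ((x : E), (0 : D)) ∈ (Y1 : Set (E × D)) := by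
    rw [Y1_coe]
    exact ⟨x.2, rfl⟩
  have h2 := hP ⟨((x : E), (0 : D)), h1⟩
  show Q (x : E) = x
  rw [hQ]
  exact congrArg (fun w : Y1 => (w : E × D).1) h2

theorem klee0 : ∃ (Φ : (E × D) ≃ (E × D)) (K K' : NNReal),
    LipschitzWith K Φ ∧ LipschitzWith K' Φ.symm ∧ Φ 0 = 0 ∧
    Φ '' (Y1 : Set (E × D)) = (Y2 : Set (E × D)) := by
  obtain ⟨Ψ, ⟨K, hK⟩, ⟨K', hK'⟩, hΨ⟩ := klee
  -- normalise at zero
  set w : E × D := Ψ 0 with hw
  have hw1 : w.1 = 0 := by
    have : Ψ 0 ∈ Ψ '' {z : E × D | z.1 ∈ D ∧ z.2 = 0} := ⟨0, ⟨D.zero_mem, rfl⟩, rfl⟩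
    rw [hΨ] at this
    exact this
  refine ⟨Ψ.trans (Equiv.subRight w), K, K', ?_, ?_, ?_, ?_⟩
  · apply LipschitzWith.of_dist_le_mul
    intro x y
    show dist (Ψ x - w) (Ψ y - w) ≤ _
    rw [dist_sub_right]
    exact hK.dist_le_mul x y
  · apply LipschitzWith.of_dist_le_mul
    intro x y
    show dist (Ψ.symm (x + w)) (Ψ.symm (y + w)) ≤ _
    refine (hK'.dist_le_mul _ _).trans ?_
    rw [dist_add_right]
  · show Ψ 0 - w = 0
    rw [hw, sub_self]
  · rw [Y1_coe, Y2_coe]
    ext z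
    constructor
    · rintro ⟨u, hu, rfl⟩
      have h1 : Ψ u ∈ Ψ '' {z : E × D | z.1 ∈ D ∧ z.2 = 0} := ⟨u, hu, rfl⟩
      rw [hΨ] at h1
      have h2 : (Ψ u).1 = 0 := h1
      show (Ψ u - w).1 = 0
      rw [Prod.fst_sub, h2, hw1, sub_zero]
    · intro hz
      have hz1 : z.1 = 0 := hz
      have h1 : z + w ∈ {z : E × D | z.1 = 0} := by
        show (z + w).1 = 0
        rw [Prod.fst_add, hz1, hw1, add_zero]
      rw [← hΨ] at h1
      obtain ⟨u, hu, hu2⟩ := h1
      refine ⟨u, hu, ?_⟩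
      show Ψ u - w = z
      rw [hu2, add_sub_cancel_right]

/-- the projection of `l_1 x D` onto `0 x D` -/
noncomputable def projR : (E × D) →L[ℝ] (E × D) :=
  (ContinuousLinearMap.inr ℝ E D).comp (ContinuousLinearMap.snd ℝ E D)

theorem incomplete_lip : ∃ f : Zs Y1 ≃ Zs Y2,
    (∃ K, LipschitzWith K f) ∧ ∃ K, LipschitzWith K f.symm := by
  obtain ⟨Φ, K, K', h1, h2, h3, h4⟩ := klee0
  exact Zs_lip Φ h1 h2 h3 h4

theorem incomplete_lin : IsEmpty (Zs Y1 ≃L[ℝ] Zs Y2) := by
  constructor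
  intro T
  haveI := complete_X
  refine Y1_not_compl (compl_of_iso Y1_closed Y2_closed projR ?_ ?_ T)
  · intro x
    have : projR x ∈ (Y2 : Set (E × D)) := by
      rw [Y2_coe]
      rfl
    exact this
  · intro x hx
    have : x ∈ (Y2 : Set (E × D)) := hx
    rw [Y2_coe] at this
    have h1 : x.1 = 0 := this
    exact Prod.ext h1.symm rfl

theorem sep_Zs (Y : Submodule ℝ (E × D)) : SeparableSpace (Zs Y) := by
  haveI := sep_X
  exact sep_sub (sep_Lq (E × D)) (Zs Y)

end Vale.Agent.P124
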