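import Vale.Agent.P124.Tree

/-!
# P124: the map kappa, its norm bound, Lipschitz bound and push-forward
-/

namespace Vale.Agent.P124

open Filter Topology Finset

noncomputable def z (j : ℕ) (c : ℕ → ℝ) : ℝ := tt c + T j c

noncomputable def kap (c : ℕ → ℝ) (n : ℕ) : ℝ :=
  tt c ^ 2 * (((z (Nat.log 2 (n + 1) + 1) c)⁻¹) ^ 2 * H c n -
    ((z (Nat.log 2 (n + 1)) c)⁻¹) ^ 2 * G c n)

theorem summable_of_levels {f : ℕ → ℝ} {C : ℝ}
    (h : ∀ L, ∑ l ∈ Finset.range L, N l f ≤ C) : Summable fun n => |f n| := by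
  apply summable_of_sum_range_le (c := C) (fun n => abs_nonneg _)
  intro n
  refine le_trans ?_ (h n)
  rw [sum_N]
  apply Finset.sum_le_sum_of_subset_of_nonneg
  · intro i hi
    simp only [Finset.mem_range] at hi ⊢
    have : n < 2 ^ n := Nat.lt_two_pow_self
    omega
  · intro i _ _
    exact abs_nonneg _

theorem tsum_le_of_levels {f : ℕ → ℝ} {C : ℝ}
    (h : ∀ L, ∑ l ∈ Finset.range L, N l f ≤ C) : ∑' n, |f n| ≤ C := by
  apply Real.tsum_le_of_sum_range_le (fun n => abs_nonneg _)
  intro n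
  refine le_trans ?_ (h n)
  rw [sum_N]
  apply Finset.sum_le_sum_of_subset_of_nonneg
  · intro i hi
    simp only [Finset.mem_range] at hi ⊢
    have : n < 2 ^ n := Nat.lt_two_pow_self
    omega
  · intro i _ _
    exact abs_nonneg _

theorem z_mono {c : ℕ → ℝ} (l : ℕ) : z (l + 1) c ≤ z l c := by
  have := T_anti (c := c) (Nat.le_succ l)
  simp only at this
  unfold z
  simp only [Nat.succ_eq_add_one] at this
  linarith

theorem tt_le_z {c : ℕ → ℝ} (hc : Summable fun n => |c n|) (l : ℕ) : tt c ≤ z l c := by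
  have := T_nonneg hc l
  unfold z
  linarith

theorem N_kap (l : ℕ) (c : ℕ → ℝ) : N l (kap c) =
    N l (tt c ^ 2 • (((z (l + 1) c)⁻¹) ^ 2 • H c - ((z l c)⁻¹) ^ 2 • G c)) := by
  apply N_congr
  intro n hn
  have := log_of_mem hn
  simp [kap, this]

theorem N_kap_sub (l : ℕ) (c c' : ℕ → ℝ) : N l (kap c - kap c') =
    N l (tt c ^ 2 • (((z (l + 1) c)⁻¹) ^ 2 • H c - ((z l c)⁻¹) ^ 2 • G c) -
      tt c' ^ 2 • (((z (l + 1) c')⁻¹) ^ 2 • H c' - ((z l c')⁻¹) ^ 2 • G c')) := by
  apply N_congr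
  intro n hn
  have := log_of_mem hn
  simp [kap, this]

theorem H_sub_G (c : ℕ → ℝ) : H c - G c = c := by
  funext n
  rw [Pi.sub_apply, H_eq]; ring

/-- telescoping -/
theorem tel {c : ℕ → ℝ} (hc : Summable fun n => |c n|) (L : ℕ) :
    ∑ l ∈ Finset.range L, (tt c * ((z (l + 1) c)⁻¹ - (z l c)⁻¹)) ≤ 1 := by
  rw [← Finset.mul_sum, Finset.sum_range_sub (fun l => (z l c)⁻¹)]
  have h0 := tt_nonneg hc
  have h1 := tt_le_z hc L
  have h2 := tt_le_z hc 0
  rcases h0.eq_or_lt with h | h
  · rw [← h]; simp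
  · have hz : 0 < z L c := lt_of_lt_of_le h h1
    have hz0 : 0 < z 0 c := lt_of_lt_of_le h h2
    have h3 : 0 ≤ (z 0 c)⁻¹ := by positivity
    calc tt c * ((z L c)⁻¹ - (z 0 c)⁻¹) ≤ z L c * ((z L c)⁻¹) := by
          apply mul_le_mul h1 (by linarith)
          · have : (z 0 c)⁻¹ ≤ (z L c)⁻¹ := by
              apply inv_anti₀ hz
              have := T_anti (c := c) (Nat.zero_le L)
              simp only at this
              unfold z
              linarith
            linarith
          · exact hz.le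
      _ = 1 := mul_inv_cancel₀ hz.ne'

theorem kap_levels {c : ℕ → ℝ} (hc : Summable fun n => |c n|) (L : ℕ) :
    ∑ l ∈ Finset.range L, N l (kap c) ≤ 3 * tt c := by
  have h0 := tt_nonneg hc
  have key : ∀ l, N l (kap c) ≤ 3 * tt c * (tt c * ((z (l + 1) c)⁻¹ - (z l c)⁻¹)) := by
    intro l
    rw [N_kap]
    rcases h0.eq_or_lt with h | h
    · rw [← h]; simp
    · have hz : 0 < z (l + 1) c := lt_of_lt_of_le h (tt_le_z hc _)
      have hs := step (N l) (x := H c) (y := G c) hz (z_mono l) (N_H_le hc l)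
        (by
          rw [H_sub_G]
          have := T_succ l c
          unfold z
          linarith)
      rw [map_smul_eq_mul, Real.norm_of_nonneg (by positivity)]
      calc tt c ^ 2 * _ ≤ tt c ^ 2 * (3 * ((z (l + 1) c)⁻¹ - (z l c)⁻¹)) := by gcongr
        _ = _ := by ring
  calc ∑ l ∈ Finset.range L, N l (kap c)
      ≤ ∑ l ∈ Finset.range L, 3 * tt c * (tt c * ((z (l + 1) c)⁻¹ - (z l c)⁻¹)) :=
        Finset.sum_le_sum fun l _ => key l
    _ = 3 * tt c * ∑ l ∈ Finset.range L, (tt c * ((z (l + 1) c)⁻¹ - (z l c)⁻¹)) := by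
        rw [Finset.mul_sum]
    _ ≤ 3 * tt c * 1 := mul_le_mul_of_nonneg_left (tel hc L) (by positivity)
    _ = 3 * tt c := by ring

theorem summable_sub {c c' : ℕ → ℝ} (hc : Summable fun n => |c n|)
    (hc' : Summable fun n => |c' n|) : Summable fun n => |(c - c') n| :=
  Summable.of_nonneg_of_le (fun _ => abs_nonneg _) (fun _ => abs_sub _ _) (hc.add hc')

theorem tt_sub_le {c c' : ℕ → ℝ} (hc : Summable fun n => |c n|)
    (hc' : Summable fun n => |c' n|) : tt c - tt c' ≤ T 0 (c - c') := by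
  have hs := summable_sub hc hc'
  have h1 := tt_add_le hs hc'
  rw [sub_add_cancel] at h1
  have h2 := tt_le_T0 hs
  linarith

theorem T_sub_le {c c' : ℕ → ℝ} (hc : Summable fun n => |c n|)
    (hc' : Summable fun n => |c' n|) (j : ℕ) : T j c - T j c' ≤ T 0 (c - c') := by
  have hs := summable_sub hc hc'
  have h1 := T_le_add hs hc' j
  rw [sub_add_cancel] at h1
  have h2 := T_anti (c := c - c') (Nat.zero_le j)
  simp only at h2
  linarith

theorem T0_symm (c c' : ℕ → ℝ) : T 0 (c - c') = T 0 (c' - c) := by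
  rw [T_zero, T_zero]
  exact tsum_congr fun n => by simp [abs_sub_comm]

theorem kap_lip_levels {c c' : ℕ → ℝ} (hc : Summable fun n => |c n|)
    (hc' : Summable fun n => |c' n|) (htt : tt c' ≤ tt c) (L : ℕ) :
    ∑ l ∈ Finset.range L, N l (kap c - kap c') ≤ 47 * T 0 (c - c') := by
  set ε := T 0 (c - c') with hεdef
  have hs := summable_sub hc hc'
  have hε0 : 0 ≤ ε := T_nonneg hs 0
  have ht0 := tt_nonneg hc
  have ht0' := tt_nonneg hc'
  have h1 : tt c - tt c' ≤ ε := tt_sub_le hc hc'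
  by_cases hcase : tt c' ≤ 4 * ε
  · have : ∀ l, N l (kap c - kap c') ≤ N l (kap c) + N l (kap c') := fun l =>
      map_sub_le_add _ _ _
    calc ∑ l ∈ Finset.range L, N l (kap c - kap c')
        ≤ ∑ l ∈ Finset.range L, (N l (kap c) + N l (kap c')) :=
          Finset.sum_le_sum fun l _ => this l
      _ = ∑ l ∈ Finset.range L, N l (kap c) + ∑ l ∈ Finset.range L, N l (kap c') := by
          rw [Finset.sum_add_distrib]
      _ ≤ 3 * tt c + 3 * tt c' := add_le_add (kap_levels hc L) (kap_levels hc' L)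
      _ ≤ 47 * ε := by linarith
  · rw [not_le] at hcase
    have hpos : 0 < tt c' := lt_of_le_of_lt (by positivity) hcase
    have hsum : ∑ l ∈ Finset.range L, N l (c - c') ≤ ε := by
      rw [sum_N, hεdef, T_zero]
      exact hs.sum_le_tsum _ (fun i _ => abs_nonneg _)
    have hzz : ∀ j, |z j c - z j c'| ≤ 2 * ε := by
      intro j
      have a1 := T_sub_le hc hc' j
      have a2 := T_sub_le hc' hc j
      rw [T0_symm] at a2
      rw [abs_le]
      unfold z
      constructor
      · linarith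
      · linarith
    have key : ∀ l, N l (kap c - kap c') ≤ 5 * N l (c - c') +
        8 * ε * (tt c * ((z (l + 1) c)⁻¹ - (z l c)⁻¹)) +
        34 * ε * (tt c' * ((z (l + 1) c')⁻¹ - (z l c')⁻¹)) := by
      intro l
      rw [N_kap_sub]
      have e1 : z l c - z (l + 1) c = N l c := by
        have := T_succ l c
        unfold z
        linarith
      have e1' : z l c' - z (l + 1) c' = N l c' := by
        have := T_succ l c'
        unfold z
        linarith
      apply lip (N l) hpos htt hε0 hcase.le h1 (tt_le_z hc _) (z_mono l) (tt_le_z hc' _)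
        (z_mono l) (hzz _) (hzz _) (N_H_le hc l) (N_H_le hc' l)
      · rw [H_sub_G, e1]
      · rw [H_sub_G, e1']
      · rw [← H_sub]
        exact N_H_le_T0 _ hs l
      · rw [H_sub_G, H_sub_G]
      · rw [e1, e1']
        exact abs_sub_map_le_sub (N l) c c'
    calc ∑ l ∈ Finset.range L, N l (kap c - kap c')
        ≤ ∑ l ∈ Finset.range L, (5 * N l (c - c') +
        8 * ε * (tt c * ((z (l + 1) c)⁻¹ - (z l c)⁻¹)) +
        34 * ε * (tt c' * ((z (l + 1) c')⁻¹ - (z l c')⁻¹))) :=
          Finset.sum_le_sum fun l _ => key l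
      _ = 5 * ∑ l ∈ Finset.range L, N l (c - c') +
        8 * ε * ∑ l ∈ Finset.range L, (tt c * ((z (l + 1) c)⁻¹ - (z l c)⁻¹)) +
        34 * ε * ∑ l ∈ Finset.range L, (tt c' * ((z (l + 1) c')⁻¹ - (z l c')⁻¹)) := by
          rw [Finset.sum_add_distrib, Finset.sum_add_distrib, Finset.mul_sum, Finset.mul_sum,
            Finset.mul_sum]
      _ ≤ 5 * ε + 8 * ε * 1 + 34 * ε * 1 := by
          have t1 := tel hc L
          have t2 := tel hc' L
          gcongr
      _ = 47 * ε := by ring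

/-- push-forward of `kap c` -/
theorem H_kap (c : ℕ → ℝ) (n : ℕ) :
    H (kap c) n = tt c ^ 2 * ((z (Nat.log 2 (n + 1) + 1) c)⁻¹) ^ 2 * H c n := by
  induction n using Nat.strong_induction_on with
  | _ n ih =>
    cases n with
    | zero =>
      rw [H, kap, G]
      ring
    | succ n =>
      have hlog : Nat.log 2 (n + 1 + 1) = Nat.log 2 (n / 2 + 1) + 1 := by
        rw [Nat.log_of_one_lt_of_le (by norm_num) (by omega)]
        congr 2
        omega
      rw [H, ih (n / 2) (by omega), kap, G, hlog]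
      ring

theorem tt_sub_kap {c : ℕ → ℝ} (hc : Summable fun n => |c n|) : tt (c - kap c) = 0 := by
  have hk : Summable fun n => |kap c n| := summable_of_levels (kap_levels hc)
  have hs := summable_sub hc hk
  have h0 := tt_nonneg hc
  have e : ∀ l, N l (H (c - kap c)) = |1 - tt c ^ 2 * ((z (l + 1) c)⁻¹) ^ 2| * N l (H c) := by
    intro l
    rw [← Real.norm_eq_abs, ← map_smul_eq_mul]
    apply N_congr
    intro n hn
    rw [H_sub, Pi.sub_apply, H_kap, log_of_mem hn, Pi.smul_apply, smul_eq_mul]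
    ring
  rcases h0.eq_or_lt with h | h
  · refine tendsto_nhds_unique (tt_tendsto hs) ((tt_tendsto hc).congr' ?_ |>.trans ?_)
    · refine Eventually.of_forall fun l => ?_
      show N l (H c) = N l (H (c - kap c))
      rw [e l, ← h]; simp
    · rw [← h]
  · have h1 := (T_tendsto hc).comp (tendsto_add_atTop_nat 1)
    have h2 : Tendsto (fun l => z (l + 1) c) atTop (𝓝 (tt c)) := by
      have := h1.const_add (tt c)
      rw [add_zero] at this
      exact this
    have h3 : Tendsto (fun l => |1 - tt c ^ 2 * ((z (l + 1) c)⁻¹) ^ 2| * N l (H c)) atTop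
        (𝓝 (|1 - tt c ^ 2 * ((tt c)⁻¹) ^ 2| * tt c)) :=
      (((((h2.inv₀ h.ne').pow 2).const_mul (tt c ^ 2)).const_sub 1).abs).mul (tt_tendsto hc)
    have h4 : |1 - tt c ^ 2 * ((tt c)⁻¹) ^ 2| * tt c = 0 := by
      have : tt c ^ 2 * ((tt c)⁻¹) ^ 2 = 1 := by
        rw [← mul_pow, mul_inv_cancel₀ h.ne', one_pow]
      rw [this]; simp
    rw [h4] at h3
    exact tendsto_nhds_unique (tt_tendsto hs) (h3.congr fun l => (e l).symm)

theorem kap_zero {c : ℕ → ℝ} (h : tt c = 0) : kap c = 0 := by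
  funext n
  simp [kap, h]

end Vale.Agent.P124
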