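import Vale.Agent.P124.Unc

/-!
# P124: Klee's trick for the pair of subspaces D x 0 and 0 x D of l_1 x D
-/

namespace Vale.Agent.P124

open Filter Topology Finset

noncomputable def rD (x : E) : D := ⟨ret x, ret_mem x⟩

theorem rD_lip : LipschitzWith 48 rD := by
  intro x y
  exact ret_lip x y

theorem rD_D (x : D) : rD (x : E) = x := Subtype.ext (ret_id x.2)

/-- shear in the second coordinate -/
noncomputable def shear1 : (E × D) ≃ (E × D) where
  toFun z := (z.1, z.2 + rD z.1)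
  invFun z := (z.1, z.2 - rD z.1)
  left_inv z := by simp
  right_inv z := by simp

/-- shear in the first coordinate -/
noncomputable def shear2 : (E × D) ≃ (E × D) where
  toFun z := (z.1 - (z.2 : E), z.2)
  invFun z := (z.1 + (z.2 : E), z.2)
  left_inv z := by simp
  right_inv z := by simp

theorem fst_lip : LipschitzWith 1 (fun z : E × D => z.1) := LipschitzWith.prod_fst

theorem snd_lip : LipschitzWith 1 (fun z : E × D => z.2) := LipschitzWith.prod_snd

theorem sndE_lip : LipschitzWith 1 (fun z : E × D => (z.2 : E)) := by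
  intro x y
  exact snd_lip x y

theorem rDfst_lip : LipschitzWith 48 (fun z : E × D => rD z.1) := by
  have := rD_lip.comp fst_lip
  rw [mul_one] at this
  exact this

theorem shear1_lip : ∃ K, LipschitzWith K shear1 :=
  ⟨_, fst_lip.prodMk (snd_lip.add rDfst_lip)⟩

theorem shear1_symm_lip : ∃ K, LipschitzWith K shear1.symm :=
  ⟨_, fst_lip.prodMk (snd_lip.sub rDfst_lip)⟩

theorem shear2_lip : ∃ K, LipschitzWith K shear2 :=
  ⟨_, (fst_lip.sub sndE_lip).prodMk snd_lip⟩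

theorem shear2_symm_lip : ∃ K, LipschitzWith K shear2.symm :=
  ⟨_, (fst_lip.add sndE_lip).prodMk snd_lip⟩

theorem klee : ∃ Φ : (E × D) ≃ (E × D),
    (∃ K, LipschitzWith K Φ) ∧ (∃ K, LipschitzWith K Φ.symm) ∧
    Φ '' {z | z.1 ∈ D ∧ z.2 = 0} = {z | z.1 = 0} := by
  refine ⟨shear1.trans shear2, ?_, ?_, ?_⟩
  · obtain ⟨K1, h1⟩ := shear1_lip
    obtain ⟨K2, h2⟩ := shear2_lip
    exact ⟨_, h2.comp h1⟩
  · obtain ⟨K1, h1⟩ := shear1_symm_lip
    obtain ⟨K2, h2⟩ := shear2_symm_lip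
    exact ⟨_, h1.comp h2⟩
  · ext w
    constructor
    · rintro ⟨u, ⟨h1, h2⟩, rfl⟩
      have e : rD u.1 = ⟨u.1, h1⟩ := rD_D ⟨u.1, h1⟩
      show u.1 - ((u.2 + rD u.1 : D) : E) = 0
      rw [h2, zero_add, e, sub_self]
    · intro h
      have h' : w.1 = 0 := h
      refine ⟨((w.2 : E), 0), ⟨w.2.2, rfl⟩, ?_⟩
      have e : rD (w.2 : E) = w.2 := rD_D w.2
      show ((w.2 : E) - ((0 + rD (w.2 : E) : D) : E), 0 + rD (w.2 : E)) = w
      rw [zero_add, e, sub_self]
      exact Prod.ext h'.symm rfl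

theorem no_linear : ¬ ∃ L : (E × D) ≃L[ℝ] (E × D),
    L '' {z | z.1 ∈ D ∧ z.2 = 0} = {z | z.1 = 0} := by
  rintro ⟨L, hL⟩
  apply not_compl
  -- projection of E x D onto {z | z.1 = 0}, transported back
  set π : (E × D) →L[ℝ] (E × D) :=
    (ContinuousLinearMap.inr ℝ E D).comp (ContinuousLinearMap.snd ℝ E D) with hπ
  set Q : E →L[ℝ] (E × D) :=
    ((L.symm : (E × D) →L[ℝ] (E × D)).comp π).comp
      ((L : (E × D) →L[ℝ] (E × D)).comp (ContinuousLinearMap.inl ℝ E D)) with hQ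
  have hQ' : ∀ x, Q x = L.symm (π (L (x, 0))) := fun x => rfl
  have hmem : ∀ x, Q x ∈ {z : E × D | z.1 ∈ D ∧ z.2 = 0} := by
    intro x
    have h1 : π (L (x, 0)) ∈ {z : E × D | z.1 = 0} := rfl
    rw [← hL] at h1
    obtain ⟨u, hu, hu2⟩ := h1
    rw [hQ', ← hu2, L.symm_apply_apply]
    exact hu
  have hfix : ∀ x ∈ D, Q x = (x, 0) := by
    intro x hx
    have h1 : L (x, 0) ∈ {z : E × D | z.1 = 0} := by
      rw [← hL]
      exact ⟨(x, 0), ⟨hx, rfl⟩, rfl⟩
    have h2 : π (L (x, 0)) = L (x, 0) := by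
      have h3 : (L (x, 0)).1 = 0 := h1
      exact Prod.ext h3.symm rfl
    rw [hQ', h2, L.symm_apply_apply]
  refine ⟨((ContinuousLinearMap.fst ℝ E D).comp Q).codRestrict D (fun x => (hmem x).1), ?_⟩
  intro x
  apply Subtype.ext
  have := hfix x x.2
  show (Q (x : E)).1 = x
  rw [this]

end Vale.Agent.P124
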