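import Vale.Agent.P124.Ret

/-!
# P124: Rademacher vectors in l_1 and their images in the quotient
-/

namespace Vale.Agent.P124

open Filter Topology Finset

noncomputable def cR (a : ℕ → ℝ) (n : ℕ) : ℝ :=
  a (Nat.log 2 (n + 1)) * (-1) ^ n / 2 ^ (Nat.log 2 (n + 1))

noncomputable def R (a : ℕ → ℝ) : ℕ → ℝ
  | 0 => a 0
  | (n + 1) => a (Nat.log 2 (n + 1 + 1)) * (-1) ^ (n + 1) + R a (n / 2)
termination_by n => n
decreasing_by omega

theorem log_succ (n : ℕ) : Nat.log 2 (n + 1 + 1) = Nat.log 2 (n / 2 + 1) + 1 := by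
  rw [Nat.log_of_one_lt_of_le (by norm_num) (by omega)]
  congr 2
  omega

theorem H_cR (a : ℕ → ℝ) (n : ℕ) : H (cR a) n = R a n / 2 ^ (Nat.log 2 (n + 1)) := by
  induction n using Nat.strong_induction_on with
  | _ n ih =>
    cases n with
    | zero => simp [H, R, cR]
    | succ n =>
      rw [H, R, ih (n / 2) (by omega), cR, log_succ]
      have : (2 : ℝ) ^ (Nat.log 2 (n / 2 + 1) + 1) = 2 ^ (Nat.log 2 (n / 2 + 1)) * 2 := pow_succ _ _
      rw [this]
      field_simp

theorem sum_pair (g : ℕ → ℝ) {A B : ℕ} (h : A ≤ B) :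
    ∑ k ∈ Finset.Ico (2 * A) (2 * B), g k =
      ∑ m ∈ Finset.Ico A B, (g (2 * m) + g (2 * m + 1)) := by
  induction B, h using Nat.le_induction with
  | base => simp
  | succ B hB ih =>
    rw [Finset.sum_Ico_succ_top (by omega), show 2 * (B + 1) = 2 * B + 1 + 1 by ring,
      Finset.sum_Ico_succ_top (by omega), Finset.sum_Ico_succ_top (by omega), ih]
    ring

theorem card_lev (l : ℕ) : (lev l).card = 2 ^ l := by
  rw [lev, Nat.card_Ico, pow_succ]
  have : 1 ≤ 2 ^ l := Nat.one_le_two_pow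
  omega

theorem energy_succ (a : ℕ → ℝ) (l : ℕ) :
    ∑ n ∈ lev (l + 1), (R a n) ^ 2 =
      2 * ∑ n ∈ lev l, (R a n) ^ 2 + 2 ^ (l + 1) * (a (l + 1)) ^ 2 := by
  have h1 : 1 ≤ 2 ^ l := Nat.one_le_two_pow
  have e1 : 2 ^ (l + 1) - 1 = 2 * (2 ^ l - 1) + 1 := by rw [pow_succ]; omega
  have e2 : 2 ^ (l + 1 + 1) - 1 = 2 * (2 ^ (l + 1) - 1) + 1 := by
    rw [pow_succ 2 (l + 1)]
    have : 1 ≤ 2 ^ (l + 1) := Nat.one_le_two_pow
    omega
  have hle : 2 ^ l - 1 ≤ 2 ^ (l + 1) - 1 := by rw [e1]; omega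
  have e3 : ∑ n ∈ lev (l + 1), (R a n) ^ 2 =
      ∑ k ∈ Finset.Ico (2 * (2 ^ l - 1)) (2 * (2 ^ (l + 1) - 1)), (R a (k + 1)) ^ 2 := by
    rw [lev, e2]
    nth_rewrite 1 [e1]
    exact (Finset.sum_Ico_add' (fun n => (R a n) ^ 2) _ _ 1).symm
  rw [e3, sum_pair _ hle]
  have e4 : ∀ m ∈ lev l, (R a (2 * m + 1)) ^ 2 + (R a (2 * m + 1 + 1)) ^ 2 =
      2 * (R a m) ^ 2 + 2 * (a (l + 1)) ^ 2 := by
    intro m hm
    have hl := log_of_mem hm
    have i1 : (2 * m) / 2 = m := by omega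
    have i2 : (2 * m + 1) / 2 = m := by omega
    rw [R, R, log_succ, log_succ, i1, i2, hl]
    have s1 : (-1 : ℝ) ^ (2 * m + 1) = -1 := by rw [pow_succ, pow_mul]; norm_num
    have s2 : (-1 : ℝ) ^ (2 * m + 1 + 1) = 1 := by rw [pow_succ, s1]; norm_num
    rw [s1, s2]
    ring
  have e5 := Finset.sum_congr rfl e4
  rw [lev] at e5
  rw [e5, Finset.sum_add_distrib, ← Finset.mul_sum, Finset.sum_const, ← lev, card_lev]
  simp only [nsmul_eq_mul, Nat.cast_pow, Nat.cast_ofNat]
  rw [pow_succ (2 : ℝ) l]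
  ring

theorem energy (a : ℕ → ℝ) (l : ℕ) :
    ∑ n ∈ lev l, (R a n) ^ 2 = 2 ^ l * ∑ k ∈ Finset.range (l + 1), (a k) ^ 2 := by
  induction l with
  | zero => simp [lev, R]
  | succ l ih =>
    rw [energy_succ, ih, Finset.sum_range_succ _ (l + 1), pow_succ (2 : ℝ) l]
    ring

theorem N_cR_le (a : ℕ → ℝ) (l : ℕ) :
    (N l (H (cR a))) ^ 2 ≤ ∑ k ∈ Finset.range (l + 1), (a k) ^ 2 := by
  have e : N l (H (cR a)) = (∑ n ∈ lev l, |R a n|) / 2 ^ l := by
    rw [N_apply, Finset.sum_div]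
    refine Finset.sum_congr rfl fun n hn => ?_
    rw [H_cR, log_of_mem hn, abs_div, abs_of_pos (by positivity : (0 : ℝ) < 2 ^ l)]
  have cs := sq_sum_le_card_mul_sum_sq (s := lev l) (f := fun n => |R a n|)
  simp only [sq_abs] at cs
  rw [card_lev, energy] at cs
  push_cast at cs
  rw [e, div_pow, div_le_iff₀ (by positivity)]
  calc (∑ n ∈ lev l, |R a n|) ^ 2 ≤ 2 ^ l * (2 ^ l * ∑ k ∈ Finset.range (l + 1), (a k) ^ 2) := cs
    _ = _ := by ring

theorem R_single (k n : ℕ) :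
    (Nat.log 2 (n + 1) < k → R (Pi.single k 1) n = 0) ∧
      (k ≤ Nat.log 2 (n + 1) → |R (Pi.single k 1) n| = 1) := by
  induction n using Nat.strong_induction_on with
  | _ n ih =>
    cases n with
    | zero =>
      constructor
      · intro h
        simp at h
        rw [R, Pi.single_eq_of_ne (by omega)]
      · intro h
        simp at h
        subst h
        rw [R]; simp
    | succ n =>
      have hi := ih (n / 2) (by omega)
      rw [R, log_succ]
      constructor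
      · intro h
        rw [hi.1 (by omega), Pi.single_eq_of_ne (by omega)]
        simp
      · intro h
        rcases h.eq_or_lt with h | h
        · rw [hi.1 (by omega), ← h]
          simp
        · rw [Pi.single_eq_of_ne (by omega), zero_mul, zero_add]
          exact hi.2 (by omega)

theorem N_cR_single (k l : ℕ) (h : k ≤ l) : N l (H (cR (Pi.single k 1))) = 1 := by
  rw [N_apply]
  have : ∀ n ∈ lev l, |H (cR (Pi.single k 1)) n| = 1 / 2 ^ l := by
    intro n hn
    have hl := log_of_mem hn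
    rw [H_cR, hl, abs_div, abs_of_pos (by positivity : (0 : ℝ) < 2 ^ l),
      (R_single k n).2 (by rw [hl]; exact h)]
  rw [Finset.sum_congr rfl this, Finset.sum_const, card_lev]
  simp

theorem N_cR (a : ℕ → ℝ) (l : ℕ) : N l (cR a) = |a l| := by
  rw [N_apply]
  have : ∀ n ∈ lev l, |cR a n| = |a l| / 2 ^ l := by
    intro n hn
    have hl := log_of_mem hn
    rw [cR, hl, abs_div, abs_of_pos (by positivity : (0 : ℝ) < 2 ^ l), abs_mul]
    simp
  rw [Finset.sum_congr rfl this, Finset.sum_const, card_lev]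
  simp
  field_simp

theorem cR_single_summable (k : ℕ) : Summable fun n => |cR (Pi.single k 1) n| := by
  apply summable_of_levels (C := 1)
  intro L
  simp only [N_cR]
  calc ∑ l ∈ Finset.range L, |(Pi.single k (1 : ℝ) : ℕ → ℝ) l|
      = ∑ l ∈ Finset.range L, (if l = k then (1 : ℝ) else 0) := by
        refine Finset.sum_congr rfl fun l _ => ?_
        by_cases h : l = k
        · subst h; simp
        · rw [Pi.single_eq_of_ne h]; simp [h]
    _ ≤ 1 := by
        rw [Finset.sum_ite_eq']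
        split_ifs <;> norm_num

/-- the k-th Rademacher vector -/
noncomputable def rho (k : ℕ) : E := mk (cR (Pi.single k 1)) (cR_single_summable k)

theorem tt_rho (k : ℕ) : tt (rho k : ℕ → ℝ) = 1 := by
  have h := tt_tendsto (summ (rho k))
  refine tendsto_nhds_unique h (tendsto_const_nhds.congr' ?_)
  filter_upwards [eventually_ge_atTop k] with l hl
  exact (N_cR_single k l hl).symm

theorem coe_sum_rho (S : Finset ℕ) (a : ℕ → ℝ) :
    ((∑ k ∈ S, a k • rho k : E) : ℕ → ℝ) = cR (fun k => if k ∈ S then a k else 0) := by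
  funext n
  rw [lp.coeFn_sum, Finset.sum_apply]
  have : ∀ k ∈ S, ((a k • rho k : E) : ℕ → ℝ) n =
      if k = Nat.log 2 (n + 1) then a k * (-1) ^ n / 2 ^ (Nat.log 2 (n + 1)) else 0 := by
    intro k _
    rw [lp.coeFn_smul, Pi.smul_apply, smul_eq_mul, rho, mk_coe, cR]
    split_ifs with h
    · rw [← h]; simp; ring
    · rw [Pi.single_eq_of_ne (Ne.symm h)]; simp
  rw [Finset.sum_congr rfl this, Finset.sum_ite_eq' S, cR]
  split_ifs with h
  · rfl
  · simp

theorem tt_sum_rho (S : Finset ℕ) (a : ℕ → ℝ) :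
    (tt ((∑ k ∈ S, a k • rho k : E) : ℕ → ℝ)) ^ 2 ≤ ∑ k ∈ S, (a k) ^ 2 := by
  have h := (tt_tendsto (summ (∑ k ∈ S, a k • rho k : E))).pow 2
  refine le_of_tendsto' h fun l => ?_
  rw [coe_sum_rho]
  refine (N_cR_le _ l).trans ?_
  have e : ∀ k, (if k ∈ S then a k else 0) ^ 2 = if k ∈ S then (a k) ^ 2 else 0 := by
    intro k; split_ifs <;> simp
  simp only [e]
  rw [← Finset.sum_filter]
  apply Finset.sum_le_sum_of_subset_of_nonneg
  · intro k hk
    exact (Finset.mem_filter.1 hk).2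
  · intro k _ _
    positivity

end Vale.Agent.P124
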