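import Vale.Agent.P124.Kap

/-!
# P124: the subspace D of l_1 and the Lipschitz retraction of l_1 onto D
-/

namespace Vale.Agent.P124

open Filter Topology Finset

abbrev E : Type := lp (fun _ : ℕ => ℝ) 1

theorem summ (c : E) : Summable fun n => |(c : ℕ → ℝ) n| := by
  have h := (memℓp_gen_iff (p := 1) (by simp)).1 (lp.memℓp c)
  simpa using h

noncomputable def mk (f : ℕ → ℝ) (h : Summable fun n => |f n|) : E :=
  ⟨f, (memℓp_gen_iff (p := 1) (by simp)).2 (by simpa using h)⟩

@[simp] theorem mk_coe (f : ℕ → ℝ) (h) : ((mk f h : E) : ℕ → ℝ) = f := rfl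

theorem norm_eq (c : E) : ‖c‖ = ∑' n, |(c : ℕ → ℝ) n| := by
  have h := lp.norm_rpow_eq_tsum (p := 1) (by simp) c
  simpa using h

theorem T0_eq (c : E) : T 0 (c : ℕ → ℝ) = ‖c‖ := by rw [T_zero, norm_eq]

theorem tt_le_norm (c : E) : tt (c : ℕ → ℝ) ≤ ‖c‖ := by
  rw [← T0_eq]; exact tt_le_T0 (summ c)

theorem tt_add (c c' : E) : tt ((c + c' : E) : ℕ → ℝ) ≤ tt (c : ℕ → ℝ) + tt (c' : ℕ → ℝ) := by
  rw [lp.coeFn_add]; exact tt_add_le (summ c) (summ c')

theorem tt_sm (r : ℝ) (c : E) : tt ((r • c : E) : ℕ → ℝ) = |r| * tt (c : ℕ → ℝ) := by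
  rw [lp.coeFn_smul]; exact tt_smul (summ c) r

theorem tt_zero : tt ((0 : E) : ℕ → ℝ) = 0 := by
  have := tt_sm 0 0
  simpa using this

theorem tt_neg (c : E) : tt ((-c : E) : ℕ → ℝ) = tt (c : ℕ → ℝ) := by
  have := tt_sm (-1) c
  simpa using this

/-- the kernel of the dyadic quotient map -/
noncomputable def D : Submodule ℝ E where
  carrier := {c | tt (c : ℕ → ℝ) = 0}
  add_mem' := by
    intro a b ha hb
    simp only [Set.mem_ofPred_eq] at ha hb ⊢
    have := tt_add a b
    have h0 := tt_nonneg (summ (a + b))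
    linarith
  zero_mem' := tt_zero
  smul_mem' := by
    intro r a ha
    simp only [Set.mem_ofPred_eq] at ha ⊢
    rw [tt_sm, ha, mul_zero]

theorem mem_D (c : E) : c ∈ D ↔ tt (c : ℕ → ℝ) = 0 := Iff.rfl

theorem tt_cont : Continuous fun c : E => tt (c : ℕ → ℝ) := by
  have : LipschitzWith 1 fun c : E => tt (c : ℕ → ℝ) := by
    apply LipschitzWith.of_le_add_mul
    intro x y
    have h1 := tt_add (x - y) y
    rw [sub_add_cancel] at h1
    have h2 := tt_le_norm (x - y)
    rw [dist_eq_norm]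
    simp only [NNReal.coe_one, one_mul]
    linarith
  exact this.continuous

theorem D_closed : IsClosed (D : Set E) := by
  have : (D : Set E) = (fun c : E => tt (c : ℕ → ℝ)) ⁻¹' {0} := by
    ext c; rfl
  rw [this]
  exact isClosed_singleton.preimage tt_cont

noncomputable def kE (c : E) : E := mk (kap c) (summable_of_levels (kap_levels (summ c)))

theorem kE_norm (c : E) : ‖kE c‖ ≤ 3 * tt (c : ℕ → ℝ) := by
  rw [norm_eq]
  exact tsum_le_of_levels (kap_levels (summ c))

noncomputable def ret (c : E) : E := c - kE c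

theorem ret_mem (c : E) : ret c ∈ D := by
  rw [mem_D, ret, lp.coeFn_sub]
  exact tt_sub_kap (summ c)

theorem ret_id {c : E} (h : c ∈ D) : ret c = c := by
  have : kE c = 0 := by
    apply lp.ext
    rw [kE, mk_coe, kap_zero h]
    rfl
  rw [ret, this, sub_zero]

theorem kE_dist (c c' : E) : ‖kE c - kE c'‖ ≤ 47 * ‖c - c'‖ := by
  wlog h : tt (c' : ℕ → ℝ) ≤ tt (c : ℕ → ℝ) generalizing c c'
  · have := this c' c (le_of_lt (not_le.1 h))
    rw [norm_sub_rev, norm_sub_rev c c']
    exact this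
  · rw [norm_eq, ← T0_eq, lp.coeFn_sub, lp.coeFn_sub]
    exact tsum_le_of_levels (kap_lip_levels (summ c) (summ c') h)

theorem ret_lip : LipschitzWith 48 ret := by
  apply LipschitzWith.of_dist_le_mul
  intro c c'
  rw [dist_eq_norm, dist_eq_norm]
  have e : ret c - ret c' = (c - c') - (kE c - kE c') := by
    unfold ret; abel
  rw [e]
  have h1 := norm_sub_le (c - c') (kE c - kE c')
  have h2 := kE_dist c c'
  have h3 : ((48 : NNReal) : ℝ) = 48 := by norm_num
  rw [h3]
  linarith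

end Vale.Agent.P124
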