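import Vale.Agent.P124.Klee

/-!
# P124: the normed space of all sequences in l_1(X) that are eventually in a subspace Y
-/

namespace Vale.Agent.P124

open Filter Topology

theorem baire_of_complete {M : Type} [NormedAddCommGroup M] [CompleteSpace M] : BaireSpace M :=
  inferInstance

section general

variable {X : Type} [NormedAddCommGroup X] [NormedSpace ℝ X]

abbrev Lq (X : Type) [NormedAddCommGroup X] : Type := lp (fun _ : ℕ => X) 1

theorem Lq_summ (f : Lq X) : Summable fun n => ‖(f : ℕ → X) n‖ := by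
  have h := (memℓp_gen_iff (p := 1) (by simp)).1 (lp.memℓp f)
  simpa using h

noncomputable def mkL (f : ℕ → X) (h : Summable fun n => ‖f n‖) : Lq X :=
  ⟨f, (memℓp_gen_iff (p := 1) (by simp)).2 (by simpa using h)⟩

theorem mkL_coe (f : ℕ → X) (h) (n : ℕ) : ((mkL f h : Lq X) : ℕ → X) n = f n := rfl

theorem Lq_norm_eq (f : Lq X) : ‖f‖ = ∑' n, ‖(f : ℕ → X) n‖ := by
  have h := lp.norm_rpow_eq_tsum (p := 1) (by simp) f
  simpa using h

/-- sequences in `l_1(X)` whose terms are eventually in `Y` -/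
def Zs (Y : Submodule ℝ X) : Submodule ℝ (Lq X) where
  carrier := {f | ∀ᶠ n in atTop, (f : ℕ → X) n ∈ Y}
  add_mem' := by
    intro a b ha hb
    filter_upwards [ha, hb] with n h1 h2
    rw [lp.coeFn_add]
    exact Y.add_mem h1 h2
  zero_mem' := Eventually.of_forall fun n => Y.zero_mem
  smul_mem' := by
    intro r a ha
    filter_upwards [ha] with n h1
    rw [lp.coeFn_smul]
    exact Y.smul_mem r h1

theorem mem_Zs (Y : Submodule ℝ X) (f : Lq X) :
    f ∈ Zs Y ↔ ∀ᶠ n in atTop, (f : ℕ → X) n ∈ Y := Iff.rfl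

/-- sequences whose terms from `m` on are in `Y` -/
def Ek (Y : Submodule ℝ X) (m : ℕ) : Submodule ℝ (Lq X) where
  carrier := {f | ∀ n, m ≤ n → (f : ℕ → X) n ∈ Y}
  add_mem' := by
    intro a b ha hb n hn
    rw [lp.coeFn_add]
    exact Y.add_mem (ha n hn) (hb n hn)
  zero_mem' := fun n _ => Y.zero_mem
  smul_mem' := by
    intro r a ha n hn
    rw [lp.coeFn_smul]
    exact Y.smul_mem r (ha n hn)

theorem mem_Ek (Y : Submodule ℝ X) (m : ℕ) (f : Lq X) :
    f ∈ Ek Y m ↔ ∀ n, m ≤ n → (f : ℕ → X) n ∈ Y := Iff.rfl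

theorem Ek_le (Y : Submodule ℝ X) (m : ℕ) : Ek Y m ≤ Zs Y := by
  intro f hf
  rw [mem_Zs]
  filter_upwards [eventually_ge_atTop m] with n hn
  exact hf n hn

theorem eval_cont (n : ℕ) : Continuous fun f : Lq X => (f : ℕ → X) n :=
  (continuous_apply n).comp lp.uniformContinuous_coe.continuous

theorem Ek_closed {Y : Submodule ℝ X} (hY : IsClosed (Y : Set X)) (m : ℕ) :
    IsClosed (Ek Y m : Set (Lq X)) := by
  have : (Ek Y m : Set (Lq X)) = ⋂ n, ⋂ (_ : m ≤ n), (fun f : Lq X => (f : ℕ → X) n) ⁻¹' Y := by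
    ext f
    simp [mem_Ek]
  rw [this]
  exact isClosed_iInter fun n => isClosed_iInter fun _ => hY.preimage (eval_cont n)

noncomputable def mapL (φ : X → X) (K : NNReal) (hK : LipschitzWith K φ) (h0 : φ 0 = 0)
    (f : Lq X) : Lq X :=
  mkL (fun n => φ ((f : ℕ → X) n)) (by
    refine Summable.of_nonneg_of_le (fun n => norm_nonneg _) (fun n => ?_)
      ((Lq_summ f).mul_left (K : ℝ))
    have := hK.dist_le_mul ((f : ℕ → X) n) 0
    rwa [h0, dist_zero_right, dist_zero_right] at this)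

theorem mapL_lip (φ : X → X) (K : NNReal) (hK : LipschitzWith K φ) (h0 : φ 0 = 0) :
    LipschitzWith K (mapL φ K hK h0) := by
  apply LipschitzWith.of_dist_le_mul
  intro f g
  rw [dist_eq_norm, dist_eq_norm, Lq_norm_eq, Lq_norm_eq, ← tsum_mul_left]
  refine (Lq_summ _).tsum_le_tsum (fun n => ?_) ((Lq_summ _).mul_left _)
  have := hK.dist_le_mul ((f : ℕ → X) n) ((g : ℕ → X) n)
  rw [dist_eq_norm, dist_eq_norm] at this
  rw [lp.coeFn_sub, lp.coeFn_sub]
  exact this

theorem Zs_lip (Φ : X ≃ X) {K K' : NNReal} (hK : LipschitzWith K Φ)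
    (hK' : LipschitzWith K' Φ.symm) (h0 : Φ 0 = 0) {Y Z : Submodule ℝ X}
    (h : Φ '' (Y : Set X) = (Z : Set X)) :
    ∃ f : Zs Y ≃ Zs Z, (∃ K, LipschitzWith K f) ∧ ∃ K, LipschitzWith K f.symm := by
  have h0' : Φ.symm 0 = 0 := by rw [Equiv.symm_apply_eq, h0]
  have h1 : ∀ y ∈ Y, Φ y ∈ Z := by
    intro y hy
    have : Φ y ∈ Φ '' (Y : Set X) := ⟨y, hy, rfl⟩
    rw [h] at this
    exact this
  have h2 : ∀ z ∈ Z, Φ.symm z ∈ Y := by
    intro z hz
    have : z ∈ Φ '' (Y : Set X) := by rw [h]; exact hz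
    obtain ⟨y, hy, rfl⟩ := this
    rw [Equiv.symm_apply_apply]
    exact hy
  let f : Zs Y ≃ Zs Z :=
    { toFun := fun a => ⟨mapL Φ K hK h0 a.1, by
        have := a.2
        rw [mem_Zs] at this ⊢
        filter_upwards [this] with n hn
        exact h1 _ hn⟩
      invFun := fun b => ⟨mapL Φ.symm K' hK' h0' b.1, by
        have := b.2
        rw [mem_Zs] at this ⊢
        filter_upwards [this] with n hn
        exact h2 _ hn⟩
      left_inv := by
        intro a
        apply Subtype.ext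
        apply lp.ext
        funext n
        exact Φ.symm_apply_apply _
      right_inv := by
        intro b
        apply Subtype.ext
        apply lp.ext
        funext n
        exact Φ.apply_symm_apply _ }
  refine ⟨f, ⟨K, ?_⟩, ⟨K', ?_⟩⟩
  · intro a b
    exact mapL_lip Φ K hK h0 a.1 b.1
  · intro a b
    exact mapL_lip Φ.symm K' hK' h0' a.1 b.1

/-- Baire step -/
theorem baire_step [CompleteSpace X] {Y Y' : Submodule ℝ X} (hY : IsClosed (Y : Set X))
    (hY' : IsClosed (Y' : Set X)) (T : Zs Y →L[ℝ] Zs Y') (m : ℕ) :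
    ∃ k, ∀ f : Zs Y, (f : Lq X) ∈ Ek Y m → ((T f : Zs Y') : Lq X) ∈ Ek Y' k := by
  haveI : IsClosed (Ek Y m : Set (Lq X)) := Ek_closed hY m
  haveI : CompleteSpace (Ek Y m) := IsClosed.completeSpace_coe
  haveI : BaireSpace (Ek Y m) := baire_of_complete
  let inc : Ek Y m →L[ℝ] Zs Y := (Ek Y m).subtypeL.codRestrict (Zs Y) (fun w => Ek_le Y m w.2)
  let S : Ek Y m →L[ℝ] Lq X := ((Zs Y').subtypeL.comp T).comp inc
  let C : ℕ → Submodule ℝ (Ek Y m) := fun k => (Ek Y' k).comap (S : Ek Y m →ₗ[ℝ] Lq X)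
  have hC : ∀ k, IsClosed (C k : Set (Ek Y m)) := fun k => (Ek_closed hY' k).preimage S.continuous
  have hU : ⋃ k, (C k : Set (Ek Y m)) = Set.univ := by
    rw [Set.eq_univ_iff_forall]
    intro w
    have h1 : (T (inc w) : Lq X) ∈ Zs Y' := (T (inc w)).2
    rw [mem_Zs, eventually_atTop] at h1
    obtain ⟨k, hk⟩ := h1
    exact Set.mem_iUnion.2 ⟨k, hk⟩
  obtain ⟨k, hk⟩ := nonempty_interior_of_iUnion_of_closed hC hU
  have htop : C k = ⊤ := Submodule.eq_top_of_nonempty_interior' _ hk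
  refine ⟨k, fun f hf => ?_⟩
  have h1 : (⟨(f : Lq X), hf⟩ : Ek Y m) ∈ C k := by rw [htop]; trivial
  have h2 : inc ⟨(f : Lq X), hf⟩ = f := Subtype.ext rfl
  have h3 : ((T (inc ⟨(f : Lq X), hf⟩) : Zs Y') : Lq X) ∈ Ek Y' k := h1
  rw [h2] at h3
  exact h3

/-- applying a bounded operator to the terms from `m` on -/
noncomputable def tailMap (P : X →L[ℝ] X) (m : ℕ) : Lq X →L[ℝ] Lq X :=
  LinearMap.mkContinuous
    { toFun := fun f => mkL (fun n => if m ≤ n then P ((f : ℕ → X) n) else (f : ℕ → X) n) (by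
        refine Summable.of_nonneg_of_le (fun n => norm_nonneg _) (fun n => ?_)
          ((Lq_summ f).mul_left (max ‖P‖ 1))
        split_ifs
        · exact (P.le_opNorm _).trans
            (mul_le_mul_of_nonneg_right (le_max_left _ _) (norm_nonneg _))
        · exact le_mul_of_one_le_left (norm_nonneg _) (le_max_right _ _))
      map_add' := by
        intro f g
        apply lp.ext
        funext n
        show (if m ≤ n then P ((f : ℕ → X) n + (g : ℕ → X) n)
            else (f : ℕ → X) n + (g : ℕ → X) n) =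
          (if m ≤ n then P ((f : ℕ → X) n) else (f : ℕ → X) n) +
            (if m ≤ n then P ((g : ℕ → X) n) else (g : ℕ → X) n)
        split_ifs
        · exact map_add P _ _
        · rfl
      map_smul' := by
        intro r f
        apply lp.ext
        funext n
        show (if m ≤ n then P (r • (f : ℕ → X) n) else r • (f : ℕ → X) n) =
          r • (if m ≤ n then P ((f : ℕ → X) n) else (f : ℕ → X) n)
        split_ifs
        · exact map_smul P _ _
        · rfl }
    (max ‖P‖ 1) (by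
      intro f
      rw [Lq_norm_eq, Lq_norm_eq, ← tsum_mul_left]
      refine (Lq_summ _).tsum_le_tsum (fun n => ?_) ((Lq_summ _).mul_left _)
      show ‖if m ≤ n then P ((f : ℕ → X) n) else (f : ℕ → X) n‖ ≤ _
      split_ifs
      · exact (P.le_opNorm _).trans
          (mul_le_mul_of_nonneg_right (le_max_left _ _) (norm_nonneg _))
      · exact le_mul_of_one_le_left (norm_nonneg _) (le_max_right _ _))

theorem tailMap_coe (P : X →L[ℝ] X) (m : ℕ) (f : Lq X) (n : ℕ) :
    (tailMap P m f : ℕ → X) n = if m ≤ n then P ((f : ℕ → X) n) else (f : ℕ → X) n := rfl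

/-- if the sequence spaces of `Y` and `Z` are linearly homeomorphic and `Z` is complemented,
then `Y` is complemented -/
theorem compl_of_iso [CompleteSpace X] {Y Z : Submodule ℝ X} (hY : IsClosed (Y : Set X))
    (hZ : IsClosed (Z : Set X)) (P : X →L[ℝ] X) (hP : ∀ x, P x ∈ Z) (hPZ : ∀ x ∈ Z, P x = x)
    (T : Zs Y ≃L[ℝ] Zs Z) : Y.ClosedComplemented := by
  obtain ⟨k, hk⟩ := baire_step hY hZ (T : Zs Y →L[ℝ] Zs Z) 0
  obtain ⟨m, hm⟩ := baire_step hZ hY (T.symm : Zs Z →L[ℝ] Zs Y) k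
  -- single at coordinate m
  have hs : ∀ x : X, lp.singleContinuousLinearMap ℝ (fun _ : ℕ => X) 1 m x ∈ Zs Y := by
    intro x
    rw [mem_Zs]
    filter_upwards [eventually_gt_atTop m] with n hn
    have : ((lp.singleContinuousLinearMap ℝ (fun _ : ℕ => X) 1 m x : Lq X) : ℕ → X) n = 0 := by
      rw [lp.singleContinuousLinearMap_apply]
      exact lp.single_apply_ne (E := fun _ : ℕ => X) 1 m x (by omega)
    rw [this]
    exact Y.zero_mem
  let sg : X →L[ℝ] Zs Y := (lp.singleContinuousLinearMap ℝ (fun _ : ℕ => X) 1 m).codRestrict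
    (Zs Y) hs
  have htail : ∀ g : Zs Z, tailMap P k (g : Lq X) ∈ Ek Z k := by
    intro g n hn
    rw [tailMap_coe, if_pos hn]
    exact hP _
  let R : Zs Z →L[ℝ] Zs Z := ((tailMap P k).comp (Zs Z).subtypeL).codRestrict (Zs Z)
    (fun g => Ek_le Z k (htail g))
  have hR : ∀ g : Zs Z, ((R g : Zs Z) : Lq X) ∈ Ek Z k := htail
  have hRfix : ∀ g : Zs Z, (g : Lq X) ∈ Ek Z k → R g = g := by
    intro g hg
    apply Subtype.ext
    apply lp.ext
    funext n
    show (tailMap P k (g : Lq X) : ℕ → X) n = _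
    rw [tailMap_coe]
    split_ifs with h
    · exact hPZ _ (hg n h)
    · rfl
  let ev : Lq X →L[ℝ] X :=
    ⟨{ toFun := fun f => (f : ℕ → X) m
       map_add' := fun f g => rfl
       map_smul' := fun r f => rfl }, eval_cont m⟩
  let Ψ : X →L[ℝ] X := ev.comp ((Zs Y).subtypeL.comp
    ((T.symm : Zs Z →L[ℝ] Zs Y).comp (R.comp ((T : Zs Y →L[ℝ] Zs Z).comp sg))))
  have hΨ : ∀ x, Ψ x = ((T.symm (R (T (sg x))) : Zs Y) : ℕ → X) m := fun x => rfl
  have hmem : ∀ x, Ψ x ∈ Y := by
    intro x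
    rw [hΨ]
    exact hm (R (T (sg x))) (hR _) m le_rfl
  have hfix : ∀ y ∈ Y, Ψ y = y := by
    intro y hy
    have h1 : ((sg y : Zs Y) : Lq X) ∈ Ek Y 0 := by
      intro n _
      show ((lp.singleContinuousLinearMap ℝ (fun _ : ℕ => X) 1 m y : Lq X) : ℕ → X) n ∈ Y
      rw [lp.singleContinuousLinearMap_apply, lp.single_apply]
      by_cases h : n = m
      · subst h
        rw [Pi.single_eq_same]; exact hy
      · rw [Pi.single_eq_of_ne h]; exact Y.zero_mem
    have h2 := hRfix (T (sg y)) (hk (sg y) h1)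
    rw [hΨ, h2, T.symm_apply_apply]
    show ((lp.singleContinuousLinearMap ℝ (fun _ : ℕ => X) 1 m y : Lq X) : ℕ → X) m = y
    rw [lp.singleContinuousLinearMap_apply]
    exact lp.single_apply_self (E := fun _ : ℕ => X) 1 m y
  refine ⟨Ψ.codRestrict Y hmem, fun y => Subtype.ext (hfix y y.2)⟩

end general

end Vale.Agent.P124
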