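import Vale.Agent.P124.Alg

/-!
# P124: the dyadic tree on ℕ (children of n: 2n+1, 2n+2) and the quotient seminorm on l_1
-/

namespace Vale.Agent.P124

open Filter Topology Finset

/-- all mass on the path from the root to `n`, pushed down to the level of `n` -/
noncomputable def H (c : ℕ → ℝ) : ℕ → ℝ
  | 0 => c 0
  | (n + 1) => c (n + 1) + H c (n / 2) / 2
termination_by n => n
decreasing_by omega

noncomputable def G (c : ℕ → ℝ) : ℕ → ℝ
  | 0 => 0
  | (n + 1) => H c (n / 2) / 2

theorem H_eq (c : ℕ → ℝ) (n : ℕ) : H c n = c n + G c n := by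
  cases n with
  | zero => rw [H, G, add_zero]
  | succ n => rw [H, G]

theorem H_sub (c c' : ℕ → ℝ) : H (c - c') = H c - H c' := by
  funext n
  induction n using Nat.strong_induction_on with
  | _ n ih =>
    cases n with
    | zero => simp [H]
    | succ n =>
      have := ih (n / 2) (by omega)
      simp only [Pi.sub_apply] at this ⊢
      rw [H, H, H, this]
      simp only [Pi.sub_apply]
      ring

theorem H_add (c c' : ℕ → ℝ) : H (c + c') = H c + H c' := by
  funext n
  induction n using Nat.strong_induction_on with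
  | _ n ih =>
    cases n with
    | zero => simp [H]
    | succ n =>
      have := ih (n / 2) (by omega)
      simp only [Pi.add_apply] at this ⊢
      rw [H, H, H, this]
      simp only [Pi.add_apply]
      ring

theorem H_smul (r : ℝ) (c : ℕ → ℝ) : H (r • c) = r • H c := by
  funext n
  induction n using Nat.strong_induction_on with
  | _ n ih =>
    cases n with
    | zero => simp [H]
    | succ n =>
      have := ih (n / 2) (by omega)
      simp only [Pi.smul_apply, smul_eq_mul] at this ⊢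
      rw [H, H, this]
      simp only [Pi.smul_apply, smul_eq_mul]
      ring

def lev (l : ℕ) : Finset ℕ := Finset.Ico (2 ^ l - 1) (2 ^ (l + 1) - 1)

theorem log_of_mem {l n : ℕ} (h : n ∈ lev l) : Nat.log 2 (n + 1) = l := by
  simp only [lev, Finset.mem_Ico] at h
  have h1 : 1 ≤ 2 ^ l := Nat.one_le_two_pow
  have h2 : 1 ≤ 2 ^ (l + 1) := Nat.one_le_two_pow
  apply Nat.log_eq_of_pow_le_of_lt_pow <;> omega

/-- l_1 norm on one level -/
noncomputable def N (l : ℕ) : Seminorm ℝ (ℕ → ℝ) :=
  Seminorm.of (fun f => ∑ n ∈ lev l, |f n|)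
    (fun f g => by
      rw [← Finset.sum_add_distrib]
      exact Finset.sum_le_sum fun n _ => abs_add_le _ _)
    (fun r f => by
      rw [Finset.mul_sum]
      exact Finset.sum_congr rfl fun n _ => by simp [abs_mul])

theorem N_apply (l : ℕ) (f : ℕ → ℝ) : N l f = ∑ n ∈ lev l, |f n| := rfl

theorem N_congr {l : ℕ} {f g : ℕ → ℝ} (h : ∀ n ∈ lev l, f n = g n) : N l f = N l g := by
  rw [N_apply, N_apply]
  exact Finset.sum_congr rfl fun n hn => by rw [h n hn]

theorem sum_half (f : ℕ → ℝ) {A B : ℕ} (h : A ≤ B) :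
    ∑ k ∈ Finset.Ico (2 * A) (2 * B), f (k / 2) = 2 * ∑ m ∈ Finset.Ico A B, f m := by
  induction B, h using Nat.le_induction with
  | base => simp
  | succ B hB ih =>
    rw [Finset.sum_Ico_succ_top (by omega), show 2 * (B + 1) = 2 * B + 1 + 1 by ring,
      Finset.sum_Ico_succ_top (by omega), Finset.sum_Ico_succ_top (by omega), ih]
    rw [show (2 * B) / 2 = B by omega, show (2 * B + 1) / 2 = B by omega]
    ring

theorem N_G (l : ℕ) (c : ℕ → ℝ) : N (l + 1) (G c) = N l (H c) := by
  rw [N_apply, N_apply]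
  have h1 : 1 ≤ 2 ^ l := Nat.one_le_two_pow
  have e1 : 2 ^ (l + 1) - 1 = 2 * (2 ^ l - 1) + 1 := by rw [pow_succ]; omega
  have e2 : 2 ^ (l + 1 + 1) - 1 = 2 * (2 ^ (l + 1) - 1) + 1 := by
    rw [pow_succ 2 (l + 1)]
    have : 1 ≤ 2 ^ (l + 1) := Nat.one_le_two_pow
    omega
  have hle : 2 ^ l - 1 ≤ 2 ^ (l + 1) - 1 := by rw [e1]; omega
  have e3 : ∑ n ∈ lev (l + 1), |G c n| =
      ∑ k ∈ Finset.Ico (2 * (2 ^ l - 1)) (2 * (2 ^ (l + 1) - 1)), |G c (k + 1)| := by
    rw [lev, e2]
    nth_rewrite 1 [e1]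
    exact (Finset.sum_Ico_add' (fun n => |G c n|) _ _ 1).symm
  rw [e3]
  have e4 : ∀ k ∈ Finset.Ico (2 * (2 ^ l - 1)) (2 * (2 ^ (l + 1) - 1)),
      |G c (k + 1)| = (fun m => |H c m| / 2) (k / 2) := by
    intro k _
    rw [G, abs_div]
    norm_num
  rw [Finset.sum_congr rfl e4, sum_half (fun m => |H c m| / 2) hle, lev, ← Finset.sum_div]
  ring

theorem N_H_succ (l : ℕ) (c : ℕ → ℝ) : N (l + 1) (H c) ≤ N (l + 1) c + N l (H c) := by
  have : H c = c + G c := funext fun n => H_eq c n
  calc N (l + 1) (H c) = N (l + 1) (c + G c) := by rw [← this]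
    _ ≤ N (l + 1) c + N (l + 1) (G c) := map_add_le_add _ _ _
    _ = N (l + 1) c + N l (H c) := by rw [N_G]

theorem N_H_succ' (l : ℕ) (c : ℕ → ℝ) : N l (H c) ≤ N (l + 1) c + N (l + 1) (H c) := by
  have : G c = H c - c := by
    funext n
    rw [Pi.sub_apply, H_eq]; ring
  rw [← N_G, this]
  exact (map_sub_le_add _ _ _).trans (by rw [add_comm])

theorem sum_N (L : ℕ) (f : ℕ → ℝ) :
    ∑ l ∈ Finset.range L, N l f = ∑ i ∈ Finset.range (2 ^ L - 1), |f i| := by
  induction L with
  | zero => simp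
  | succ L ih =>
    rw [Finset.sum_range_succ, ih, N_apply, lev]
    apply Finset.sum_range_add_sum_Ico
    have : 2 ^ L ≤ 2 ^ (L + 1) := Nat.pow_le_pow_right (by norm_num) (by omega)
    omega

/-- mass on the levels `≥ j` -/
noncomputable def T (j : ℕ) (c : ℕ → ℝ) : ℝ :=
  (∑' n, |c n|) - ∑ i ∈ Finset.range (2 ^ j - 1), |c i|

theorem T_zero (c : ℕ → ℝ) : T 0 c = ∑' n, |c n| := by simp [T]

theorem T_succ (l : ℕ) (c : ℕ → ℝ) : T l c = N l c + T (l + 1) c := by
  have := sum_N (l + 1) c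
  rw [Finset.sum_range_succ, sum_N] at this
  unfold T
  linarith

theorem T_nonneg {c : ℕ → ℝ} (hc : Summable fun n => |c n|) (j : ℕ) : 0 ≤ T j c := by
  have := hc.sum_le_tsum (Finset.range (2 ^ j - 1)) (fun i _ => abs_nonneg _)
  unfold T
  linarith

theorem tendsto_pow_sub : Tendsto (fun j : ℕ => 2 ^ j - 1) atTop atTop := by
  apply tendsto_atTop_mono (f := fun j => j)
  · intro j
    have : j < 2 ^ j := Nat.lt_two_pow_self
    omega
  · exact tendsto_id

theorem T_tendsto {c : ℕ → ℝ} (hc : Summable fun n => |c n|) :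
    Tendsto (fun j => T j c) atTop (𝓝 0) := by
  have h := hc.hasSum.tendsto_sum_nat.comp tendsto_pow_sub
  have := h.const_sub (∑' n, |c n|)
  rw [sub_self] at this
  exact this

theorem T_eq {c : ℕ → ℝ} (hc : Summable fun n => |c n|) (j : ℕ) :
    T j c = ∑' n, |c (n + (2 ^ j - 1))| := by
  have := hc.sum_add_tsum_nat_add (2 ^ j - 1)
  unfold T
  linarith

theorem T_le_add {c c' : ℕ → ℝ} (hc : Summable fun n => |c n|) (hc' : Summable fun n => |c' n|)
    (j : ℕ) : T j (c + c') ≤ T j c + T j c' := by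
  have hs : Summable fun n => |(c + c') n| :=
    Summable.of_nonneg_of_le (fun n => abs_nonneg _) (fun n => abs_add_le _ _) (hc.add hc')
  rw [T_eq hs, T_eq hc, T_eq hc']
  have h1 := (summable_nat_add_iff (2 ^ j - 1)).2 hc
  have h2 := (summable_nat_add_iff (2 ^ j - 1)).2 hc'
  rw [← h1.tsum_add h2]
  exact ((summable_nat_add_iff (2 ^ j - 1)).2 hs).tsum_le_tsum (fun n => abs_add_le _ _)
    (h1.add h2)

theorem T_anti {c : ℕ → ℝ} : Antitone fun j => T j c := by
  apply antitone_nat_of_succ_le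
  intro l
  have := T_succ l c
  have h := apply_nonneg (N l) c
  linarith

/-- limit of the level norms of the pushed mass -/
noncomputable def tt (c : ℕ → ℝ) : ℝ := ⨅ l, (N l (H c) + T (l + 1) c)

theorem v_anti (c : ℕ → ℝ) : Antitone fun l => N l (H c) + T (l + 1) c := by
  apply antitone_nat_of_succ_le
  intro l
  have h1 := T_succ (l + 1) c
  have h2 := N_H_succ l c
  linarith

theorem v_zero (c : ℕ → ℝ) : N 0 (H c) + T 1 c = T 0 c := by
  have h1 := T_succ 0 c
  have : N 0 (H c) = N 0 c := by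
    apply N_congr
    intro n hn
    simp [lev] at hn
    subst hn
    rw [H]
  rw [this]
  simpa using h1.symm

theorem v_bdd {c : ℕ → ℝ} (hc : Summable fun n => |c n|) :
    BddBelow (Set.range fun l => N l (H c) + T (l + 1) c) := by
  refine ⟨0, ?_⟩
  rintro _ ⟨l, rfl⟩
  have := T_nonneg hc (l + 1)
  have h := apply_nonneg (N l) (H c)
  simp only
  linarith

theorem tt_le {c : ℕ → ℝ} (hc : Summable fun n => |c n|) (l : ℕ) :
    tt c ≤ N l (H c) + T (l + 1) c := ciInf_le (v_bdd hc) l

theorem tt_le_T0 {c : ℕ → ℝ} (hc : Summable fun n => |c n|) : tt c ≤ T 0 c :=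
  (tt_le hc 0).trans (le_of_eq (v_zero c))

theorem tt_tendsto {c : ℕ → ℝ} (hc : Summable fun n => |c n|) :
    Tendsto (fun l => N l (H c)) atTop (𝓝 (tt c)) := by
  have h1 := tendsto_atTop_ciInf (v_anti c) (v_bdd hc)
  have h2 := (T_tendsto hc).comp (tendsto_add_atTop_nat 1)
  have := h1.sub h2
  rw [sub_zero] at this
  refine this.congr fun l => ?_
  simp

theorem N_H_le {c : ℕ → ℝ} (hc : Summable fun n => |c n|) (l : ℕ) :
    N l (H c) ≤ tt c + T (l + 1) c := by
  have hm : Monotone fun l => N l (H c) - T (l + 1) c := by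
    apply monotone_nat_of_le_succ
    intro l
    have h1 := T_succ (l + 1) c
    have h2 := N_H_succ' l c
    linarith
  have h2 := (T_tendsto hc).comp (tendsto_add_atTop_nat 1)
  have h3 := (tt_tendsto hc).sub h2
  rw [sub_zero] at h3
  have := hm.ge_of_tendsto h3 l
  linarith

theorem N_H_le_T0 (c : ℕ → ℝ) (hc : Summable fun n => |c n|) (l : ℕ) :
    N l (H c) ≤ T 0 c := by
  have h := v_anti c (Nat.zero_le l)
  have h0 := v_zero c
  have h1 := T_nonneg hc (l + 1)
  simp only [zero_add] at h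
  linarith

theorem tt_nonneg {c : ℕ → ℝ} (hc : Summable fun n => |c n|) : 0 ≤ tt c :=
  ge_of_tendsto' (tt_tendsto hc) fun l => apply_nonneg (N l) (H c)

theorem tt_add_le {c c' : ℕ → ℝ} (hc : Summable fun n => |c n|)
    (hc' : Summable fun n => |c' n|) : tt (c + c') ≤ tt c + tt c' := by
  have hs : Summable fun n => |(c + c') n| :=
    Summable.of_nonneg_of_le (fun n => abs_nonneg _) (fun n => abs_add_le _ _) (hc.add hc')
  refine le_of_tendsto_of_tendsto' (tt_tendsto hs) ((tt_tendsto hc).add (tt_tendsto hc'))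
    fun l => ?_
  rw [H_add]
  exact map_add_le_add _ _ _

theorem tt_smul {c : ℕ → ℝ} (hc : Summable fun n => |c n|) (r : ℝ) :
    tt (r • c) = |r| * tt c := by
  have hs : Summable fun n => |(r • c) n| := by
    refine (hc.mul_left |r|).congr fun n => ?_
    simp [abs_mul]
  refine tendsto_nhds_unique (tt_tendsto hs) (((tt_tendsto hc).const_mul |r|).congr fun l => ?_)
  rw [H_smul, map_smul_eq_mul, Real.norm_eq_abs]

end Vale.Agent.P124
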