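import Vale.Agent.P124.Rad

/-!
# P124: D is not complemented in l_1
-/

namespace Vale.Agent.P124

open Filter Topology Finset

theorem tendsto_min (u : E) {x : ℕ → E}
    (hx : ∀ j, Tendsto (fun k => (x k : ℕ → ℝ) j) atTop (𝓝 0)) :
    Tendsto (fun k => ∑' j, min |(u : ℕ → ℝ) j| |(x k : ℕ → ℝ) j|) atTop (𝓝 0) := by
  have h := tendsto_tsum_of_dominated_convergence (𝓕 := atTop)
    (f := fun k j => min |(u : ℕ → ℝ) j| |(x k : ℕ → ℝ) j|) (g := fun _ => (0 : ℝ))
    (bound := fun j => |(u : ℕ → ℝ) j|) (summ u) ?_ ?_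
  · simpa using h
  · intro j
    have := (hx j).abs
    rw [abs_zero] at this
    have h2 := (tendsto_const_nhds (x := |(u : ℕ → ℝ) j|) (f := (atTop : Filter ℕ))).min this
    rwa [min_eq_right (abs_nonneg _)] at h2
  · refine Eventually.of_forall fun k j => ?_
    rw [Real.norm_of_nonneg (le_min (abs_nonneg _) (abs_nonneg _))]
    exact min_le_left _ _

theorem norm_add_ge (u v : E) :
    ‖u‖ + ‖v‖ - 2 * ∑' j, min |(u : ℕ → ℝ) j| |(v : ℕ → ℝ) j| ≤ ‖u + v‖ := by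
  have hmin : Summable fun j => min |(u : ℕ → ℝ) j| |(v : ℕ → ℝ) j| :=
    Summable.of_nonneg_of_le (fun j => le_min (abs_nonneg _) (abs_nonneg _))
      (fun j => min_le_left _ _) (summ u)
  rw [norm_eq, norm_eq, norm_eq, ← (summ u).tsum_add (summ v), ← hmin.tsum_mul_left 2,
    ← ((summ u).add (summ v)).tsum_sub (hmin.mul_left 2)]
  refine (((summ u).add (summ v)).sub (hmin.mul_left 2)).tsum_le_tsum (fun j => ?_)
    (summ (u + v))
  rw [lp.coeFn_add, Pi.add_apply]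
  have h1 := abs_sub_abs_le_abs_sub ((u : ℕ → ℝ) j) (-(v : ℕ → ℝ) j)
  have h2 := abs_sub_abs_le_abs_sub ((v : ℕ → ℝ) j) (-(u : ℕ → ℝ) j)
  rw [abs_neg, sub_neg_eq_add] at h1 h2
  rw [add_comm] at h2
  rcases le_total |(u : ℕ → ℝ) j| |(v : ℕ → ℝ) j| with h | h
  · rw [min_eq_left h]; linarith
  · rw [min_eq_right h]; linarith

/-- any sequence of vectors of norm at least one tending to zero coordinatewise has
long sums of large norm -/
theorem long_sums {x : ℕ → E} (hx : ∀ j, Tendsto (fun k => (x k : ℕ → ℝ) j) atTop (𝓝 0))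
    (h1 : ∀ k, 1 ≤ ‖x k‖) (m : ℕ) :
    ∃ S : Finset ℕ, S.card = m ∧ (m : ℝ) / 2 ≤ ‖∑ k ∈ S, x k‖ := by
  induction m with
  | zero => exact ⟨∅, rfl, by simp⟩
  | succ m ih =>
    obtain ⟨S, hS, hn⟩ := ih
    have ev1 := (tendsto_min (∑ k ∈ S, x k) hx).eventually (gt_mem_nhds (by norm_num : (0 : ℝ) < 1 / 4))
    have ev2 := eventually_gt_atTop (S.sup id)
    obtain ⟨k, hk1, hk2⟩ := (ev1.and ev2).exists
    have hkS : k ∉ S := by
      intro hmem
      have := Finset.le_sup (f := id) hmem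
      simp only [id] at this
      omega
    refine ⟨insert k S, by rw [Finset.card_insert_of_notMem hkS, hS], ?_⟩
    rw [Finset.sum_insert hkS, add_comm (x k)]
    have := norm_add_ge (∑ k ∈ S, x k) (x k)
    have h2 := h1 k
    push_cast
    linarith

theorem not_compl : ¬ D.ClosedComplemented := by
  rintro ⟨P, hP⟩
  set Tm : E →L[ℝ] E := ContinuousLinearMap.id ℝ E - D.subtypeL.comp P with hTm
  have hT : ∀ x, Tm x = x - (P x : E) := fun x => rfl
  have hTD : ∀ x ∈ D, Tm x = 0 := by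
    intro x hx
    rw [hT, hP ⟨x, hx⟩, sub_self]
  have hTk : ∀ x, Tm x = Tm (kE x) := by
    intro x
    have := hTD _ (ret_mem x)
    rw [ret, map_sub, sub_eq_zero] at this
    exact this
  set C := ‖Tm‖ with hC
  have hup : ∀ x : E, ‖Tm x‖ ≤ 3 * C * tt (x : ℕ → ℝ) := by
    intro x
    rw [hTk]
    calc ‖Tm (kE x)‖ ≤ C * ‖kE x‖ := Tm.le_opNorm _
      _ ≤ C * (3 * tt (x : ℕ → ℝ)) := by
          apply mul_le_mul_of_nonneg_left (kE_norm x) (norm_nonneg _)
      _ = _ := by ring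
  have hlow : ∀ x : E, tt (x : ℕ → ℝ) ≤ ‖Tm x‖ := by
    intro x
    have h1 := tt_add (Tm x) (P x : E)
    have h2 : Tm x + (P x : E) = x := by rw [hT]; abel
    rw [h2] at h1
    have h3 : tt (((P x : E)) : ℕ → ℝ) = 0 := (mem_D _).1 (P x).2
    have h4 := tt_le_norm (Tm x)
    linarith
  set K := 3 * C with hK
  have hK0 : 0 ≤ K := by positivity
  have hsq : ∀ (S : Finset ℕ) (a : ℕ → ℝ),
      ‖∑ k ∈ S, a k • Tm (rho k)‖ ^ 2 ≤ K ^ 2 * ∑ k ∈ S, (a k) ^ 2 := by
    intro S a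
    have e : ∑ k ∈ S, a k • Tm (rho k) = Tm (∑ k ∈ S, a k • rho k) := by
      rw [map_sum]
      exact Finset.sum_congr rfl fun k _ => by rw [map_smul]
    rw [e]
    have h1 := hup (∑ k ∈ S, a k • rho k)
    have h2 := tt_sum_rho S a
    calc ‖Tm (∑ k ∈ S, a k • rho k)‖ ^ 2
        ≤ (K * tt ((∑ k ∈ S, a k • rho k : E) : ℕ → ℝ)) ^ 2 := by gcongr
      _ = K ^ 2 * (tt ((∑ k ∈ S, a k • rho k : E) : ℕ → ℝ)) ^ 2 := by ring
      _ ≤ K ^ 2 * ∑ k ∈ S, (a k) ^ 2 := by gcongr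
  -- coordinates tend to zero
  have hcoord : ∀ j, Tendsto (fun k => (Tm (rho k) : ℕ → ℝ) j) atTop (𝓝 0) := by
    intro j
    have hb : ∀ n, ∑ k ∈ Finset.range n, ((Tm (rho k) : ℕ → ℝ) j) ^ 2 ≤ K ^ 2 := by
      intro n
      set s := ∑ k ∈ Finset.range n, ((Tm (rho k) : ℕ → ℝ) j) ^ 2 with hs
      have h1 := hsq (Finset.range n) (fun k => (Tm (rho k) : ℕ → ℝ) j)
      have h2 := lp.norm_apply_le_norm (p := 1) (by norm_num)
        (∑ k ∈ Finset.range n, ((Tm (rho k) : ℕ → ℝ) j) • Tm (rho k)) j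
      have h3 : ((∑ k ∈ Finset.range n, ((Tm (rho k) : ℕ → ℝ) j) • Tm (rho k) : E) : ℕ → ℝ) j
          = s := by
        rw [lp.coeFn_sum, Finset.sum_apply, hs]
        refine Finset.sum_congr rfl fun k _ => ?_
        rw [lp.coeFn_smul, Pi.smul_apply, smul_eq_mul]
        ring
      have hs0 : 0 ≤ s := Finset.sum_nonneg fun k _ => by positivity
      rw [h3, Real.norm_of_nonneg hs0] at h2
      have h4 : s ^ 2 ≤ K ^ 2 * s := (pow_le_pow_left₀ hs0 h2 2).trans h1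
      rcases hs0.eq_or_lt with h | h
      · rw [← h]; positivity
      · have : s * s ≤ K ^ 2 * s := by rw [← pow_two]; exact h4
        exact le_of_mul_le_mul_right this h
    have hsum : Summable fun k => ((Tm (rho k) : ℕ → ℝ) j) ^ 2 :=
      summable_of_sum_range_le (fun k => by positivity) hb
    have h0 := hsum.tendsto_atTop_zero
    have := h0.sqrt
    rw [Real.sqrt_zero] at this
    have h2 : Tendsto (fun k => |(Tm (rho k) : ℕ → ℝ) j|) atTop (𝓝 0) :=
      this.congr fun k => Real.sqrt_sq_eq_abs _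
    exact (tendsto_zero_iff_abs_tendsto_zero _).2 h2
  have hone : ∀ k, 1 ≤ ‖Tm (rho k)‖ := by
    intro k
    have := hlow (rho k)
    rwa [tt_rho] at this
  obtain ⟨m, hm⟩ := exists_nat_gt (4 * K ^ 2)
  obtain ⟨S, hS, hn⟩ := long_sums hcoord hone m
  have h1 := hsq S (fun _ => 1)
  simp only [one_smul, one_pow, Finset.sum_const, nsmul_eq_mul, mul_one] at h1
  rw [hS] at h1
  have hm0 : (0 : ℝ) < m := lt_of_le_of_lt (by positivity) hm
  have h2 : ((m : ℝ) / 2) ^ 2 ≤ K ^ 2 * m := (pow_le_pow_left₀ (by positivity) hn 2).trans h1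
  nlinarith

end Vale.Agent.P124
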